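import Vale.Agent.P254.SP.H127.FC
import Vale.Agent.P254.SP.H427.Bes

/-!
# P254, block SP: kernel budgets

`kr w U s a v z i = Σ_j w(s_i,s_j) uu_a,ij (Uᵀ v)_j`.  If `w(x,y)² ≤ C (wσ(x,y) - 1)`:
* `∑_p E Σ_a Σ_i (kr w a e_p)_i² ≤ C Extra`,
* `∑_p q_p⁻¹ E Σ_i (Σ_a kr w a (A_a e_p))_i² ≤ C Extra` (Bessel),
and `∑_p q_p⁻¹ E |Z e_p|² ≤ ∑_p Σ_a E |F_a e_p|²`.
-/

open MeasureTheory Matrix Finset Filter Topology

noncomputable section

namespace Vale.Agent.P254.SP127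

open Vale.Agent.P227.M Vale.Agent.P254.S Vale.Agent.P254.SP
open Vale.Agent.P254.S130 (MBM BM MBL BL gQ)

variable {n : ℕ}

/-- frame coordinates of a kernel field applied to a constant vector -/
def kr (w : ℝ → ℝ → ℝ) (U : E n → Matrix (Fin n) (Fin n) ℝ) (s : E n → Fin n → ℝ) (a : Fin n)
    (v : Fin n → ℝ) (z : E n) (i : Fin n) : ℝ :=
  ∑ j, w (s z i) (s z j) * uu U s a z i j * xx U v z j

lemma kap_eq_kr (f f' : ℝ → ℝ) (U : E n → Matrix (Fin n) (Fin n) ℝ) (s : E n → Fin n → ℝ)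
    (a : Fin n) (v : Fin n → ℝ) :
    kap f f' U s a v = kr (fun x y => dd f f' x y - f' x) U s a v := rfl

/-- the weight of the energy without the flat part -/
def Extra (P : F1) (U : E n → Matrix (Fin n) (Fin n) ℝ) (s : E n → Fin n → ℝ) : ℝ :=
  Ex Q (fun z => ∑ k, ∑ i, ∑ j, (wσ P (s z i) (s z j) - 1) * uu U s k z i j ^ 2)

variable {P : F1} {φ V : E n → ℝ} {a b M κ : ℝ}
  {U : E n → Matrix (Fin n) (Fin n) ℝ} {s : E n → Fin n → ℝ}

lemma FC.kr (h : BP φ V a b M κ) (hF : Fr P φ U s) {w : ℝ → ℝ → ℝ}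
    (hw : Continuous fun p : ℝ × ℝ => w p.1 p.2) (k : Fin n) (v : Fin n → ℝ) :
    FC U (SP127.kr w U s k v) := FC.uu h hF hw k (FC.xx v)

/-- `kr` is `Uᵀ (sch w (∂_a G)) v` -/
lemma kr_eq (hF : Fr P φ U s) (w : ℝ → ℝ → ℝ) (k : Fin n) (v : Fin n → ℝ) (z : E n) (i : Fin n) :
    kr w U s k v z i = ((U z)ᵀ.mulVec ((sch w (U z) (s z) (pdM k (GG U s) z)).mulVec v)) i := by
  have h1 : (U z)ᵀ.mulVec ((sch w (U z) (s z) (pdM k (GG U s) z)).mulVec v)
      = ((U z)ᵀ * sch w (U z) (s z) (pdM k (GG U s) z) * U z).mulVec ((U z)ᵀ.mulVec v) := by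
    rw [Matrix.mulVec_mulVec, Matrix.mulVec_mulVec, Matrix.mul_assoc, Matrix.mul_assoc, hF.orth z,
      Matrix.mul_one]
  rw [h1, sch_frame' (orthT hF z)]
  unfold kr xx uu
  simp only [Matrix.mulVec, dotProduct, of_apply]

lemma frame_sum (hF : Fr P φ U s) (w : ℝ → ℝ → ℝ) (k : Fin n) (z : E n) :
    ∑ i, ∑ j, sch w (U z) (s z) (pdM k (GG U s) z) i j ^ 2
      = ∑ i, ∑ j, (w (s z i) (s z j) * uu U s k z i j) ^ 2 := by
  rw [← S130.frob_orth (orthT hF z)]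
  exact Finset.sum_congr rfl fun i _ => Finset.sum_congr rfl fun j _ => by
    rw [sch_frame (orthT hF z)]
    rfl

/-- pointwise bound of the kernel square -/
lemma ker_le {w : ℝ → ℝ → ℝ} {C : ℝ} (hk : ∀ x y, w x y ^ 2 ≤ C * (wσ P x y - 1)) (z : E n) :
    ∑ k, ∑ i, ∑ j, (w (s z i) (s z j) * uu U s k z i j) ^ 2
      ≤ C * ∑ k, ∑ i, ∑ j, (wσ P (s z i) (s z j) - 1) * uu U s k z i j ^ 2 := by
  simp only [Finset.mul_sum]
  refine Finset.sum_le_sum fun k _ => Finset.sum_le_sum fun i _ => Finset.sum_le_sum fun j _ => ?_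
  rw [mul_pow, ← mul_assoc]
  exact mul_le_mul_of_nonneg_right (hk _ _) (sq_nonneg _)

lemma mp_extra (h : BP φ V a b M κ) (hF : Fr P φ U s) :
    MP fun z => ∑ k, ∑ i, ∑ j, (wσ P (s z i) (s z j) - 1) * uu U s k z i j ^ 2 :=
  mp_uu h hF (w := fun x y => wσ P x y - 1) ((wσ_continuous P).sub continuous_const)

variable {e : Fin n → Fin n → ℝ} {q : Fin n → ℝ}

/-- **(B1)** -/
theorem budget1 (h : BP φ V a b M κ) (hF : Fr P φ U s) {w : ℝ → ℝ → ℝ}
    (hw : Continuous fun p : ℝ × ℝ => w p.1 p.2) {C : ℝ}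
    (hk : ∀ x y, w x y ^ 2 ≤ C * (wσ P x y - 1))
    (he : ∀ p p', ∑ i, e p i * e p' i = if p = p' then 1 else 0) :
    ∑ p, Ex Q (fun z => ∑ k, ∑ i, kr w U s k (e p) z i ^ 2) ≤ C * Extra P U s := by
  have h1 : ∀ p, MP fun z => ∑ k, ∑ i, kr w U s k (e p) z i ^ 2 := fun p =>
    MP.sum _ fun k _ => (FC.kr h hF hw k (e p)).sq hF.orth
  rw [← Ex_sum' _ fun p _ => h1 p, Extra, ← Ex_smul']
  refine Ex_mono' (MP.sum _ fun p _ => h1 p) ((mp_extra h hF).smul C) fun z => ?_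
  refine le_trans (le_of_eq ?_) (ker_le (U := U) hk z)
  rw [Finset.sum_comm]
  refine Finset.sum_congr rfl fun k _ => ?_
  rw [← frame_sum hF w k z, ← SP427.sum_sq_fam he (sch w (U z) (s z) (pdM k (GG U s) z))]
  refine Finset.sum_congr rfl fun p _ => ?_
  refine Eq.trans ?_ (SP427.frame_norm (hF.orth z) _)
  exact Finset.sum_congr rfl fun i _ => by rw [kr_eq hF]

lemma AA_symm (U : E n → Matrix (Fin n) (Fin n) ℝ) (s : E n → Fin n → ℝ) (k : Fin n) :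
    (AA U s k).IsSymm := by
  ext i j
  show Ex Q (fun z => pdM k (GG U s) z j i) = Ex Q (fun z => pdM k (GG U s) z i j)
  congr 1
  funext z
  exact (pdM_GG_symm U s k z).apply i j

/-- **(B2)** -/
theorem budget2 (h : BP φ V a b M κ) (hF : Fr P φ U s) {w : ℝ → ℝ → ℝ}
    (hw : Continuous fun p : ℝ × ℝ => w p.1 p.2) {C : ℝ}
    (hk : ∀ x y, w x y ^ 2 ≤ C * (wσ P x y - 1))
    (he : ∀ p p', ∑ i, e p i * e p' i = if p = p' then 1 else 0)
    (hq : ∀ p, (KK U s).mulVec (e p) = q p • e p) :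
    ∑ p, (q p)⁻¹ * Ex Q (fun z => ∑ i, (∑ k, kr w U s k ((AA U s k).mulVec (e p)) z i) ^ 2)
      ≤ C * Extra P U s := by
  have h1 : ∀ p, MP fun z => ∑ i, (∑ k, kr w U s k ((AA U s k).mulVec (e p)) z i) ^ 2 := fun p =>
    (FC.sum (U := U) Finset.univ (c := fun k => kr w U s k ((AA U s k).mulVec (e p)))
      fun k _ => FC.kr h hF hw k _).sq hF.orth
  have h2 : ∀ p, (q p)⁻¹ * Ex Q (fun z => ∑ i, (∑ k, kr w U s k ((AA U s k).mulVec (e p)) z i) ^ 2)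
      = Ex Q (fun z => (q p)⁻¹ * ∑ i, (∑ k, kr w U s k ((AA U s k).mulVec (e p)) z i) ^ 2) :=
    fun p => (Ex_smul' _ _).symm
  simp only [h2]
  rw [← Ex_sum' _ fun p _ => (h1 p).smul _, Extra, ← Ex_smul']
  refine Ex_mono' (MP.sum _ fun p _ => (h1 p).smul _) ((mp_extra h hF).smul C) fun z => ?_
  refine le_trans ?_ (ker_le (U := U) hk z)
  have h3 := (SP427.stmtBes n (AA U s) (fun k => sch w (U z) (s z) (pdM k (GG U s) z))
    (AA_symm U s) e q he hq).2.2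
  refine le_trans (le_of_eq ?_) (h3.trans (le_of_eq ?_))
  · refine Finset.sum_congr rfl fun p _ => ?_
    congr 1
    have e0 := SP427.frame_norm (hF.orth z)
      (∑ k, (sch w (U z) (s z) (pdM k (GG U s) z)).mulVec ((AA U s k).mulVec (e p)))
    refine Eq.trans ?_ (e0.trans ?_)
    · refine Finset.sum_congr rfl fun i _ => ?_
      congr 1
      rw [Matrix.mulVec_sum, Finset.sum_apply]
      exact Finset.sum_congr rfl fun k _ => kr_eq hF w k _ z i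
    · refine Finset.sum_congr rfl fun i _ => ?_
      rw [Finset.sum_apply]
  · exact Finset.sum_congr rfl fun k _ => frame_sum hF w k z

/-- **(B3)** budget of `Z` -/
theorem budgetZ (h : BP φ V a b M κ) (hF : Fr P φ U s)
    (he : ∀ p p', ∑ i, e p i * e p' i = if p = p' then 1 else 0)
    (hq : ∀ p, (KK U s).mulVec (e p) = q p • e p) :
    ∑ p, (q p)⁻¹ * Ex Q (fun z => ∑ i, col U (ZZ U s) (e p) z i ^ 2)
      ≤ ∑ p, Ex Q (fun z => ∑ k, ∑ i, col U (Fa U s k) (e p) z i ^ 2) := by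
  have h1 : ∀ p, MP fun z => ∑ i, col U (ZZ U s) (e p) z i ^ 2 := fun p =>
    (FC.ze h hF (e p)).sq hF.orth
  have h1' : ∀ p, MP fun z => ∑ k, ∑ i, col U (Fa U s k) (e p) z i ^ 2 := fun p =>
    MP.sum _ fun k _ => (FC.fa h hF k (e p)).sq hF.orth
  have h2 : ∀ p, (q p)⁻¹ * Ex Q (fun z => ∑ i, col U (ZZ U s) (e p) z i ^ 2)
      = Ex Q (fun z => (q p)⁻¹ * ∑ i, col U (ZZ U s) (e p) z i ^ 2) :=
    fun p => (Ex_smul' _ _).symm
  simp only [h2]
  rw [← Ex_sum' _ fun p _ => (h1 p).smul _, ← Ex_sum' _ fun p _ => h1' p]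
  refine Ex_mono' (MP.sum _ fun p _ => (h1 p).smul _) (MP.sum _ fun p _ => h1' p) fun z => ?_
  have h3 := (SP427.stmtBes n (AA U s) (fun k => Fa U s k z) (AA_symm U s) e q he hq).2.2
  refine le_trans (le_of_eq ?_) (h3.trans (le_of_eq ?_))
  · refine Finset.sum_congr rfl fun p _ => ?_
    congr 1
    refine Eq.trans (SP427.frame_norm (hF.orth z) ((ZZ U s z).mulVec (e p))) ?_
    refine Finset.sum_congr rfl fun i _ => ?_
    congr 1
    unfold ZZ
    rw [Matrix.sum_mulVec, Finset.sum_apply]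
    exact Finset.sum_congr rfl fun k _ => by rw [Matrix.mulVec_mulVec]
  · refine Eq.trans ?_ Finset.sum_comm
    refine Finset.sum_congr rfl fun k _ => ?_
    rw [← SP427.sum_sq_fam he]
    refine Finset.sum_congr rfl fun p _ => ?_
    exact (SP427.frame_norm (hF.orth z) ((Fa U s k z).mulVec (e p))).symm

/-- the square root of a positive continuous weight -/
lemma kr_weight (w : ℝ → ℝ → ℝ) (W : ℝ → ℝ) (U : E n → Matrix (Fin n) (Fin n) ℝ)
    (s : E n → Fin n → ℝ) (k : Fin n) (v : Fin n → ℝ) (z : E n) (i : Fin n) :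
    kr (fun x y => (Real.sqrt (W x))⁻¹ * w x y) U s k v z i
      = (Real.sqrt (W (s z i)))⁻¹ * kr w U s k v z i := by
  unfold kr
  rw [Finset.mul_sum]
  exact Finset.sum_congr rfl fun j _ => by ring

/-- **(B2)** with a weight `W(s_i)` -/
theorem budget2W (h : BP φ V a b M κ) (hF : Fr P φ U s) {w : ℝ → ℝ → ℝ}
    (hw : Continuous fun p : ℝ × ℝ => w p.1 p.2) {W : ℝ → ℝ} (hWc : Continuous W)
    (hW0 : ∀ x, 0 < W x) {C : ℝ}
    (hk : ∀ x y, w x y ^ 2 ≤ C * W x * (wσ P x y - 1))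
    (he : ∀ p p', ∑ i, e p i * e p' i = if p = p' then 1 else 0)
    (hq : ∀ p, (KK U s).mulVec (e p) = q p • e p) :
    ∑ p, (q p)⁻¹ * Ex Q (fun z => ∑ i, (W (s z i))⁻¹
        * (∑ k, kr w U s k ((AA U s k).mulVec (e p)) z i) ^ 2) ≤ C * Extra P U s := by
  have hsq : ∀ x, 0 < Real.sqrt (W x) := fun x => Real.sqrt_pos.2 (hW0 x)
  have hw' : Continuous fun p : ℝ × ℝ => (fun x y => (Real.sqrt (W x))⁻¹ * w x y) p.1 p.2 :=
    (((Real.continuous_sqrt.comp hWc).comp continuous_fst).inv₀ fun p => (hsq p.1).ne').mul hw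
  have hk' : ∀ x y, (fun x y => (Real.sqrt (W x))⁻¹ * w x y) x y ^ 2 ≤ C * (wσ P x y - 1) := by
    intro x y
    have h1 : ((Real.sqrt (W x))⁻¹ * w x y) ^ 2 = (W x)⁻¹ * w x y ^ 2 := by
      rw [mul_pow, inv_pow, Real.sq_sqrt (hW0 x).le]
    show ((Real.sqrt (W x))⁻¹ * w x y) ^ 2 ≤ _
    rw [h1, inv_mul_le_iff₀ (hW0 x)]
    calc w x y ^ 2 ≤ C * W x * (wσ P x y - 1) := hk x y
      _ = W x * (C * (wσ P x y - 1)) := by ring
  have h1 := budget2 h hF hw' hk' he hq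
  refine le_trans (le_of_eq ?_) h1
  refine Finset.sum_congr rfl fun p _ => ?_
  congr 1
  congr 1
  funext z
  refine Finset.sum_congr rfl fun i _ => ?_
  simp only [kr_weight]
  rw [← Finset.mul_sum, mul_pow, inv_pow, Real.sq_sqrt (hW0 _).le]

/-- the energy in the frame: `Extra = ∑_k E Σ wσ uu² - ∑_k E Σ uu²` -/
lemma extra_eq (h : BP φ V a b M κ) (hF : Fr P φ U s) :
    Extra P U s = Ex Q (fun z => ∑ k, ∑ i, ∑ j, wσ P (s z i) (s z j) * uu U s k z i j ^ 2)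
      - Ex Q (fun z => ∑ k, ∑ i, ∑ j, uu U s k z i j ^ 2) := by
  unfold Extra
  have m1 : MP fun z => ∑ k, ∑ i, ∑ j, wσ P (s z i) (s z j) * uu U s k z i j ^ 2 :=
    mp_uu h hF (w := fun x y => wσ P x y) (wσ_continuous P)
  have m2 : MP fun z => ∑ k, ∑ i, ∑ j, uu U s k z i j ^ 2 := by
    have := mp_uu h hF (w := fun _ _ => (1 : ℝ)) continuous_const
    simpa only [one_mul] using this
  rw [← Ex_sub' m1 m2]
  congr 1
  funext z
  simp only [← Finset.sum_sub_distrib]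
  exact Finset.sum_congr rfl fun k _ => Finset.sum_congr rfl fun i _ =>
    Finset.sum_congr rfl fun j _ => by ring

end Vale.Agent.P254.SP127
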