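import Vale.Agent.P254.SP.H127.StmtMeas
import Vale.Agent.P254.SP.H828.PL

/-!
# P254, block SP: integrability library for frame coordinates

`FC U c`: `c z i = ((U z)ᵀ v z) i` for a measurable vector field `v` of polynomial growth.  The class is
closed under sums, scalars, multiplication by `p (s z i)` (`p` continuous) and continuous kernels;
`FC U c → FC U d → Integrable (fun z => ∑ i, p (s z i) * c z i * d z i) (gQ n)`.
-/

open MeasureTheory Matrix Finset Filter Topology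

noncomputable section

namespace Vale.Agent.P254.SP127

open Vale.Agent.P227.M Vale.Agent.P254.S Vale.Agent.P254.SP Vale.Agent.P254.SP620
open Vale.Agent.P254.S130 (MBM BM MBL BL gQ)
open Vale.Agent.P254.SP.H828 (PG PL)

variable {n : ℕ}

/-! ### measurable functions of polynomial growth -/

/-- measurable, polynomial growth -/
def MP (f : E n → ℝ) : Prop := Measurable f ∧ PG f

variable {f g : E n → ℝ}

lemma MP.add (hf : MP f) (hg : MP g) : MP fun z => f z + g z := ⟨hf.1.add hg.1, hf.2.add hg.2⟩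
lemma MP.sub (hf : MP f) (hg : MP g) : MP fun z => f z - g z := ⟨hf.1.sub hg.1, hf.2.sub hg.2⟩
lemma MP.mul (hf : MP f) (hg : MP g) : MP fun z => f z * g z := ⟨hf.1.mul hg.1, hf.2.mul hg.2⟩
lemma MP.const (c : ℝ) : MP fun _ : E n => c := ⟨measurable_const, PG.const c⟩
lemma MP.smul (c : ℝ) (hf : MP f) : MP fun z => c * f z := (MP.const c).mul hf

lemma MP.sum {κ : Type*} (t : Finset κ) {f : κ → E n → ℝ} (h : ∀ k ∈ t, MP (f k)) :
    MP fun z => ∑ k ∈ t, f k z :=
  ⟨Finset.measurable_fun_sum _ fun k hk => (h k hk).1, PG.sum _ fun k hk => (h k hk).2⟩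

lemma MP.abs (hf : MP f) : MP fun z => |f z| := by
  obtain ⟨C, k, h⟩ := hf.2
  exact ⟨hf.1.abs, C, k, fun x => by rw [abs_abs]; exact h x⟩

lemma MP.integrable (hf : MP f) : Integrable f (gQ n) := hf.2.integrable hf.1.aestronglyMeasurable

lemma MP.coord (i : Fin n) : MP fun z : E n => z i :=
  ⟨(PL.coord i).continuous.measurable, (PL.coord i).pg⟩

lemma MP.of_PL (h : PL f) : MP f := ⟨h.continuous.measurable, h.pg⟩

lemma MP.of_BL (h : BL f) : MP f := MP.of_PL (PL.of_BL h)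

lemma MP.pd_of_PL (h : PL f) (k : Fin n) : MP (pd k f) := ⟨H828.meas_pd f k, h.pg_pd k⟩

lemma MP.pd_of_BL (h : BL f) (k : Fin n) : MP (pd k f) := MP.pd_of_PL (PL.of_BL h) k

/-- matrix fields with entries in `MP` -/
def MPM (D : E n → Matrix (Fin n) (Fin n) ℝ) : Prop := ∀ i j, MP fun z => D z i j

/-- vector fields with components in `MP` -/
def MPV (v : E n → Fin n → ℝ) : Prop := ∀ i, MP fun z => v z i

variable {A B : E n → Matrix (Fin n) (Fin n) ℝ} {v w : E n → Fin n → ℝ}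

lemma MPM.mul (hA : MPM A) (hB : MPM B) : MPM fun z => A z * B z := fun i j => by
  simp only [mul_apply]
  exact MP.sum _ fun k _ => (hA i k).mul (hB k j)

lemma MPM.const (X : Matrix (Fin n) (Fin n) ℝ) : MPM fun _ : E n => X := fun i j => MP.const (X i j)

lemma MPM.add (hA : MPM A) (hB : MPM B) : MPM fun z => A z + B z := fun i j => (hA i j).add (hB i j)

lemma MPM.sub (hA : MPM A) (hB : MPM B) : MPM fun z => A z - B z := fun i j => (hA i j).sub (hB i j)

lemma MPM.sum {κ : Type*} (t : Finset κ) {D : κ → E n → Matrix (Fin n) (Fin n) ℝ}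
    (h : ∀ k ∈ t, MPM (D k)) : MPM fun z => ∑ k ∈ t, D k z := fun i j => by
  simp only [Matrix.sum_apply]
  exact MP.sum _ fun k hk => h k hk i j

lemma MPM.mulVec (hA : MPM A) (hv : MPV v) : MPV fun z => (A z).mulVec (v z) := fun i => by
  simp only [Matrix.mulVec, dotProduct]
  exact MP.sum _ fun k _ => (hA i k).mul (hv k)

lemma MPV.add (hv : MPV v) (hw : MPV w) : MPV fun z => v z + w z := fun i => (hv i).add (hw i)
lemma MPV.sub (hv : MPV v) (hw : MPV w) : MPV fun z => v z - w z := fun i => (hv i).sub (hw i)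
lemma MPV.smul (c : ℝ) (hv : MPV v) : MPV fun z => c • v z := fun i => (hv i).smul c
lemma MPV.const (e : Fin n → ℝ) : MPV fun _ : E n => e := fun i => MP.const (e i)

lemma MPV.sum {κ : Type*} (t : Finset κ) {v : κ → E n → Fin n → ℝ} (h : ∀ k ∈ t, MPV (v k)) :
    MPV fun z => ∑ k ∈ t, v k z := fun i => by
  simp only [Finset.sum_apply]
  exact MP.sum _ fun k hk => h k hk i

lemma MPM.of_MBL (h : MBL A) : MPM A := fun i j => MP.of_BL (h i j)

lemma MPM.pdM (h : MBL A) (k : Fin n) : MPM (pdM k A) := fun i j => MP.pd_of_BL (h i j) k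

/-! ### Schur fields -/

variable {P : F1} {φ V : E n → ℝ} {a b M κ : ℝ}
  {U : E n → Matrix (Fin n) (Fin n) ℝ} {s : E n → Fin n → ℝ}

theorem mpm_sch (h : BP φ V a b M κ) (hF : Fr P φ U s) {w : ℝ → ℝ → ℝ}
    (hw : Continuous fun p : ℝ × ℝ => w p.1 p.2)
    {D : E n → Matrix (Fin n) (Fin n) ℝ} (hD : MPM D) :
    MPM fun z => sch w (U z) (s z) (D z) := by
  intro i j
  refine ⟨mm_sch h hF hw (fun i j => (hD i j).1) i j, ?_⟩
  have hK : IsCompact (Set.Icc (P.g a) (P.g (max a b)) ×ˢ Set.Icc (P.g a) (P.g (max a b))) :=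
    isCompact_Icc.prod isCompact_Icc
  obtain ⟨B, hB⟩ := hK.exists_bound_of_continuousOn hw.continuousOn
  have hB' : ∀ z k l, |w (s z k) (s z l)| ≤ |B| := fun z k l =>
    (hB (s z k, s z l) ⟨s_mem h hF z k, s_mem h hF z l⟩).trans (le_abs_self B)
  have h1 : MP fun z => |B| * (Fintype.card (Fin n) * ∑ k, ∑ l, |D z k l|) :=
    (MP.smul _ (MP.sum _ fun k _ => MP.sum _ fun l _ => (hD k l).abs)).smul _
  obtain ⟨C, N, hC⟩ := h1.2
  refine ⟨C, N, fun z => le_trans ?_ ((le_abs_self _).trans (hC z))⟩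
  have hs : ∀ k l, |D z k l| ≤ ∑ k, ∑ l, |D z k l| := fun k l => by
    calc |D z k l| ≤ ∑ l, |D z k l| :=
          Finset.single_le_sum (f := fun l => |D z k l|) (fun _ _ => abs_nonneg _) (Finset.mem_univ l)
      _ ≤ _ := Finset.single_le_sum (f := fun k => ∑ l, |D z k l|)
          (fun _ _ => Finset.sum_nonneg fun _ _ => abs_nonneg _) (Finset.mem_univ k)
  have h2 : SP620.fr (D z) ≤ (Fintype.card (Fin n) * ∑ k, ∑ l, |D z k l|) ^ 2 := fr_le hs
  have h0 : 0 ≤ ∑ k, ∑ l, |D z k l| :=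
    Finset.sum_nonneg fun _ _ => Finset.sum_nonneg fun _ _ => abs_nonneg _
  refine entry_le (by positivity) ?_ i j
  have h3 : SP620.fr (sch w (U z) (s z) (D z)) ≤ |B| ^ 2 * SP620.fr (D z) := by
    rw [← fr_orth (orthT hF z) (orthT hF z) (sch w (U z) (s z) (D z)),
      ← fr_orth (orthT hF z) (orthT hF z) (D z), sch_frame' (orthT hF z), SP620.fr, SP620.fr,
      Finset.mul_sum]
    refine Finset.sum_le_sum fun i _ => ?_
    rw [Finset.mul_sum]
    refine Finset.sum_le_sum fun j _ => ?_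
    rw [of_apply, mul_pow]
    refine mul_le_mul_of_nonneg_right ?_ (sq_nonneg _)
    rw [← sq_abs]
    exact pow_le_pow_left₀ (abs_nonneg _) (hB' z i j) 2
  calc _ ≤ |B| ^ 2 * SP620.fr (D z) := h3
    _ ≤ |B| ^ 2 * (Fintype.card (Fin n) * ∑ k, ∑ l, |D z k l|) ^ 2 :=
        mul_le_mul_of_nonneg_left h2 (sq_nonneg _)
    _ = _ := by ring

/-- `f(G)` is the Schur field of `f` applied to `1` -/
lemma fc_eq_sch (hF : Fr P φ U s) (f : ℝ → ℝ) (z : E n) :
    fc U s f z = sch (fun x _ => f x) (U z) (s z) 1 := by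
  refine frame_inj (orthT hF z) ?_
  rw [sch_frame' (orthT hF z)]
  have h2 : (U z)ᵀ * fc U s f z * U z = diagonal fun k => f (s z k) := by
    unfold fc
    calc (U z)ᵀ * (U z * diagonal (fun k => f (s z k)) * (U z)ᵀ) * U z
        = ((U z)ᵀ * U z) * diagonal (fun k => f (s z k)) * ((U z)ᵀ * U z) := by
          simp only [Matrix.mul_assoc]
      _ = _ := by rw [orthT hF z, Matrix.one_mul, Matrix.mul_one]
  rw [h2, Matrix.mul_one, orthT hF z]
  ext i j
  rw [of_apply]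
  by_cases hij : i = j
  · subst hij
    rw [one_apply_eq, diagonal_apply_eq, mul_one]
  · rw [one_apply_ne hij, diagonal_apply_ne _ hij, mul_zero]

theorem mpm_fc (h : BP φ V a b M κ) (hF : Fr P φ U s) {f : ℝ → ℝ} (hf : Continuous f) :
    MPM (fc U s f) := by
  have h1 := mpm_sch h hF (w := fun x _ => f x) (by fun_prop) (MPM.const (n := n) 1)
  intro i j
  have h2 := h1 i j
  simp only [← fc_eq_sch hF] at h2
  exact h2

/-! ### frame coordinates -/

/-- frame coordinates of a measurable vector field of polynomial growth -/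
def FC (U : E n → Matrix (Fin n) (Fin n) ℝ) (c : E n → Fin n → ℝ) : Prop :=
  ∃ v : E n → Fin n → ℝ, MPV v ∧ ∀ z i, c z i = ((U z)ᵀ.mulVec (v z)) i

variable {c d : E n → Fin n → ℝ}

lemma FC.congr (hc : FC U c) (h : ∀ z i, d z i = c z i) : FC U d := by
  obtain ⟨v, hv, e⟩ := hc
  exact ⟨v, hv, fun z i => (h z i).trans (e z i)⟩

lemma FC.add (hc : FC U c) (hd : FC U d) : FC U fun z i => c z i + d z i := by
  obtain ⟨v, hv, e⟩ := hc
  obtain ⟨w, hw, e'⟩ := hd
  exact ⟨_, hv.add hw, fun z i => by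
    show c z i + d z i = _
    rw [e, e', Matrix.mulVec_add]
    rfl⟩

lemma FC.sub (hc : FC U c) (hd : FC U d) : FC U fun z i => c z i - d z i := by
  obtain ⟨v, hv, e⟩ := hc
  obtain ⟨w, hw, e'⟩ := hd
  exact ⟨_, hv.sub hw, fun z i => by
    show c z i - d z i = _
    rw [e, e', Matrix.mulVec_sub]
    rfl⟩

lemma FC.smul (r : ℝ) (hc : FC U c) : FC U fun z i => r * c z i := by
  obtain ⟨v, hv, e⟩ := hc
  exact ⟨_, hv.smul r, fun z i => by
    show r * c z i = _
    rw [e, Matrix.mulVec_smul]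
    rfl⟩

lemma FC.sum {κ : Type*} (t : Finset κ) {c : κ → E n → Fin n → ℝ} (h : ∀ k ∈ t, FC U (c k)) :
    FC U fun z i => ∑ k ∈ t, c k z i := by
  classical
  induction t using Finset.induction_on with
  | empty =>
    simp only [Finset.sum_empty]
    exact ⟨fun _ => 0, MPV.const 0, fun z i => by simp⟩
  | insert k t hk ih =>
    simp only [Finset.sum_insert hk]
    exact (h k (Finset.mem_insert_self _ _)).add (ih fun j hj => h j (Finset.mem_insert_of_mem hj))

lemma FC.of_field (hv : MPV v) : FC U fun z i => ((U z)ᵀ.mulVec (v z)) i := ⟨v, hv, fun _ _ => rfl⟩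

/-- continuous kernels -/
theorem FC.kernel (h : BP φ V a b M κ) (hF : Fr P φ U s) {w : ℝ → ℝ → ℝ}
    (hw : Continuous fun p : ℝ × ℝ => w p.1 p.2)
    {D : E n → Matrix (Fin n) (Fin n) ℝ} (hD : MPM D) (hc : FC U c) :
    FC U fun z i => ∑ j, w (s z i) (s z j) * ((U z)ᵀ * D z * U z) i j * c z j := by
  obtain ⟨v, hv, e⟩ := hc
  refine ⟨_, (mpm_sch h hF hw hD).mulVec hv, fun z i => ?_⟩
  have h1 : (U z)ᵀ.mulVec ((sch w (U z) (s z) (D z)).mulVec (v z))
      = ((U z)ᵀ * sch w (U z) (s z) (D z) * U z).mulVec ((U z)ᵀ.mulVec (v z)) := by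
    rw [Matrix.mulVec_mulVec, Matrix.mulVec_mulVec, Matrix.mul_assoc, Matrix.mul_assoc, hF.orth z,
      Matrix.mul_one]
  rw [h1, sch_frame' (orthT hF z)]
  simp only [Matrix.mulVec, dotProduct, of_apply]
  refine Finset.sum_congr rfl fun j _ => ?_
  rw [e z j]
  simp only [Matrix.mulVec, dotProduct]

/-- kernels of `uu` -/
theorem FC.uu (h : BP φ V a b M κ) (hF : Fr P φ U s) {w : ℝ → ℝ → ℝ}
    (hw : Continuous fun p : ℝ × ℝ => w p.1 p.2) (k : Fin n) (hc : FC U c) :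
    FC U fun z i => ∑ j, w (s z i) (s z j) * uu U s k z i j * c z j :=
  FC.kernel h hF hw (MPM.pdM (mbl_GG h hF) k) hc

/-- multiplication by `p(s z i)` -/
theorem FC.pmul (h : BP φ V a b M κ) (hF : Fr P φ U s) {p : ℝ → ℝ} (hp : Continuous p)
    (hc : FC U c) : FC U fun z i => p (s z i) * c z i := by
  have h1 := FC.kernel h hF (w := fun x _ => p x) (by fun_prop) (MPM.const (n := n) 1) hc
  refine h1.congr fun z i => ?_
  rw [Matrix.mul_one, orthT hF z, Finset.sum_eq_single i]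
  · rw [one_apply_eq, mul_one]
  · intro j _ hj
    rw [one_apply_ne hj.symm, mul_zero, zero_mul]
  · intro hi
    exact absurd (Finset.mem_univ i) hi

lemma FC.dot (hU : ∀ z, U z * (U z)ᵀ = 1) (hc : FC U c) (hd : FC U d) :
    MP fun z => ∑ i, c z i * d z i := by
  obtain ⟨v, hv, e⟩ := hc
  obtain ⟨w, hw, e'⟩ := hd
  have h1 : (fun z => ∑ i, c z i * d z i) = fun z => ∑ i, v z i * w z i := by
    funext z
    have h2 : ((U z)ᵀ.mulVec (v z)) ⬝ᵥ ((U z)ᵀ.mulVec (w z)) = v z ⬝ᵥ w z := by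
      rw [Matrix.dotProduct_mulVec, Matrix.vecMul_transpose, Matrix.mulVec_mulVec, hU z,
        Matrix.one_mulVec]
    simp only [dotProduct] at h2
    rw [← h2]
    exact Finset.sum_congr rfl fun i _ => by rw [e, e']
  rw [h1]
  exact MP.sum _ fun i _ => (hv i).mul (hw i)

/-- **integrability of all column forms** -/
theorem FC.pdot (h : BP φ V a b M κ) (hF : Fr P φ U s) {p : ℝ → ℝ} (hp : Continuous p)
    (hc : FC U c) (hd : FC U d) : MP fun z => ∑ i, p (s z i) * c z i * d z i :=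
  (FC.pmul h hF hp hc).dot hF.orth hd

lemma FC.sq (hU : ∀ z, U z * (U z)ᵀ = 1) (hc : FC U c) : MP fun z => ∑ i, c z i ^ 2 := by
  have h := hc.dot hU hc
  simpa only [pow_two] using h

theorem FC.psq (h : BP φ V a b M κ) (hF : Fr P φ U s) {p : ℝ → ℝ} (hp : Continuous p)
    (hc : FC U c) : MP fun z => ∑ i, p (s z i) * c z i ^ 2 := by
  have h1 := FC.pdot h hF hp hc hc
  simpa only [pow_two, mul_assoc] using h1

/-! ### the coordinates of `IfaceB` -/

lemma FC.xx (e : Fin n → ℝ) : FC U (SP.xx U e) := ⟨_, MPV.const e, fun _ _ => rfl⟩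

lemma FC.col {B : E n → Matrix (Fin n) (Fin n) ℝ} (hB : MPM B) (e : Fin n → ℝ) :
    FC U (SP.col U B e) := ⟨_, hB.mulVec (MPV.const e), fun _ _ => rfl⟩

lemma FC.fr {w : Fin n → E n → ℝ} (hw : ∀ j, MP (w j)) : FC U (SP.fr U w) :=
  ⟨fun z j => w j z, hw, fun _ _ => rfl⟩

lemma FC.fr_blip {w : Fin n → E n → ℝ} (hw : BLip w) : FC U (SP.fr U w) := by
  obtain ⟨K, hK⟩ := hw
  refine FC.fr fun j => MP.of_BL ⟨⟨K, (hK j).2⟩, K, fun x y => ?_⟩
  have h := (hK j).1.dist_le_mul x y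
  rwa [Real.dist_eq, dist_eq_norm] at h

lemma FC.fr_pd_blip {w : Fin n → E n → ℝ} (hw : BLip w) (k : Fin n) :
    FC U (SP.fr U fun j => pd k (w j)) := by
  obtain ⟨K, hK⟩ := hw
  refine FC.fr fun j => MP.pd_of_BL ⟨⟨K, (hK j).2⟩, K, fun x y => ?_⟩ k
  have h := (hK j).1.dist_le_mul x y
  rwa [Real.dist_eq, dist_eq_norm] at h

lemma mpm_GG (h : BP φ V a b M κ) (hF : Fr P φ U s) : MPM (GG U s) := MPM.of_MBL (mbl_GG h hF)

lemma mpm_FF (h : BP φ V a b M κ) (hF : Fr P φ U s) : MPM (FF U s) := by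
  unfold FF
  refine (mpm_GG h hF).sub (MPM.sum _ fun k _ => fun i j => ?_)
  simp only [Matrix.smul_apply, smul_eq_mul]
  exact (MP.coord k).mul (MP.const _)

lemma mpm_Fa (h : BP φ V a b M κ) (hF : Fr P φ U s) (k : Fin n) : MPM (Fa U s k) := by
  unfold Fa
  exact (MPM.pdM (mbl_GG h hF) k).sub (MPM.const _)

lemma mpm_ZZ (h : BP φ V a b M κ) (hF : Fr P φ U s) : MPM (ZZ U s) := by
  unfold ZZ
  exact MPM.sum _ fun k _ => (mpm_Fa h hF k).mul (MPM.const _)

lemma FC.y (h : BP φ V a b M κ) (hF : Fr P φ U s) (e : Fin n → ℝ) :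
    FC U (SP.col U (FF U s) e) := FC.col (mpm_FF h hF) e

lemma FC.ze (h : BP φ V a b M κ) (hF : Fr P φ U s) (e : Fin n → ℝ) :
    FC U (SP.col U (ZZ U s) e) := FC.col (mpm_ZZ h hF) e

lemma FC.fa (h : BP φ V a b M κ) (hF : Fr P φ U s) (k : Fin n) (e : Fin n → ℝ) :
    FC U (SP.col U (Fa U s k) e) := FC.col (mpm_Fa h hF k) e

lemma FC.kap (h : BP φ V a b M κ) (hF : Fr P φ U s) {f f' : ℝ → ℝ}
    (hf : ∀ x, HasDerivAt f (f' x) x) (hf' : Continuous f') (k : Fin n) (v : Fin n → ℝ) :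
    FC U (SP.kap f f' U s k v) :=
  FC.uu h hF (w := fun x y => dd f f' x y - f' x)
    ((dd_continuous hf hf').sub (hf'.comp continuous_fst)) k (FC.xx v)

lemma FC.ae (h : BP φ V a b M κ) (hF : Fr P φ U s) (q : ℝ) (e : Fin n → ℝ) :
    FC U (SP.ae P U s q e) := by
  have h1 := FC.pmul h hF (r'_cont P) (FC.y h hF e)
  have h2 := FC.smul (q - 1) (FC.pmul h hF P.r''_cont (FC.xx (U := U) e))
  have h3 := FC.pmul h hF P.r''_cont (FC.ze h hF e)
  have h4 := FC.sum (U := U) Finset.univ (c := fun k : Fin n =>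
    SP.kap P.r' P.r'' U s k ((AA U s k).mulVec e)) fun k _ => FC.kap h hF P.hr' P.r''_cont k _
  refine (((h1.add h2).add h3).add h4).congr fun z i => ?_
  unfold SP.ae
  ring

lemma FC.be (h : BP φ V a b M κ) (hF : Fr P φ U s) (e : Fin n → ℝ) (k : Fin n) :
    FC U (SP.be P U s e k) :=
  (FC.pmul h hF (r'_cont P) (FC.fa h hF k e)).add (FC.kap h hF P.hr (r'_cont P) k e)

/-- the kernel of the commutator term in `StmtUps` -/
lemma comm_continuous (P : F1) : Continuous fun p : ℝ × ℝ =>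
    (dd P.r P.r' p.1 p.2 - P.r' p.1) + P.r p.1 * (dd P.r' P.r'' p.1 p.2 - P.r'' p.1)
      - P.r' p.2 * (dd P.r P.r' p.1 p.2 - P.r' p.2) := by
  have h1 := dd_continuous P.hr (r'_cont P)
  have h2 := dd_continuous P.hr' P.r''_cont
  have h3 := r_cont P
  have h4 := r'_cont P
  have h5 := P.r''_cont
  fun_prop

/-- the commutator column of `StmtUps` -/
lemma FC.comm (h : BP φ V a b M κ) (hF : Fr P φ U s) (k : Fin n) (v : Fin n → ℝ) :
    FC U fun z i => ∑ j, ((dd P.r P.r' (s z i) (s z j) - P.r' (s z i))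
      + P.r (s z i) * (dd P.r' P.r'' (s z i) (s z j) - P.r'' (s z i))
      - P.r' (s z j) * (dd P.r P.r' (s z i) (s z j) - P.r' (s z j))) * SP.uu U s k z i j
        * SP.xx U v z j :=
  FC.uu h hF (w := fun x y => (dd P.r P.r' x y - P.r' x) + P.r x * (dd P.r' P.r'' x y - P.r'' x)
      - P.r' y * (dd P.r P.r' x y - P.r' y)) (comm_continuous P) k (FC.xx v)

/-- `Σ_k Σ_ij w(s_i,s_j) uu_k,ij²` is bounded measurable, hence `MP` -/
lemma mp_uu (h : BP φ V a b M κ) (hF : Fr P φ U s) {w : ℝ → ℝ → ℝ}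
    (hw : Continuous fun p : ℝ × ℝ => w p.1 p.2) :
    MP fun z => ∑ k, ∑ i, ∑ j, w (s z i) (s z j) * SP.uu U s k z i j ^ 2 := by
  refine MP.sum _ fun k _ => ?_
  have e : (fun z => ∑ i, ∑ j, w (s z i) (s z j) * SP.uu U s k z i j ^ 2)
      = fun z => ∑ i, ∑ j, sch w (U z) (s z) (pdM k (GG U s) z) i j * pdM k (GG U s) z i j := by
    funext z
    rw [← frame_pair (orthT hF z)]
    exact Finset.sum_congr rfl fun i _ => Finset.sum_congr rfl fun j _ => by
      rw [pow_two]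
      rfl
  rw [e]
  have h1 := MPM.pdM (mbl_GG h hF) k
  exact MP.sum _ fun i _ => MP.sum _ fun j _ => (mpm_sch h hF hw h1 i j).mul (h1 i j)

/-! ### linearity of `Ex Q` -/

lemma Ex_add' (hf : MP f) (hg : MP g) : Ex Q (fun z => f z + g z) = Ex Q f + Ex Q g := by
  simp only [S130.Ex_eq]
  exact integral_add hf.integrable hg.integrable

lemma Ex_sub' (hf : MP f) (hg : MP g) : Ex Q (fun z => f z - g z) = Ex Q f - Ex Q g := by
  simp only [S130.Ex_eq]
  exact integral_sub hf.integrable hg.integrable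

lemma Ex_smul' (c : ℝ) (f : E n → ℝ) : Ex Q (fun z => c * f z) = c * Ex Q f := by
  simp only [S130.Ex_eq]
  exact integral_const_mul c f

lemma Ex_sum' {κ : Type*} (t : Finset κ) {f : κ → E n → ℝ} (h : ∀ k ∈ t, MP (f k)) :
    Ex Q (fun z => ∑ k ∈ t, f k z) = ∑ k ∈ t, Ex Q (f k) := by
  simp only [S130.Ex_eq]
  exact integral_finsetSum _ fun k hk => (h k hk).integrable

lemma Ex_mono' (hf : MP f) (hg : MP g) (h : ∀ z, f z ≤ g z) : Ex Q f ≤ Ex Q g := by
  simp only [S130.Ex_eq]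
  exact integral_mono hf.integrable hg.integrable h

lemma Ex_mono_ae' (hf : MP f) (hg : MP g) (h : ∀ᵐ z ∂(gQ n), f z ≤ g z) : Ex Q f ≤ Ex Q g := by
  simp only [S130.Ex_eq]
  exact integral_mono_ae hf.integrable hg.integrable h

lemma Ex_nonneg' (h : ∀ z, 0 ≤ f z) : 0 ≤ Ex Q f := by
  rw [S130.Ex_eq]
  exact integral_nonneg h

lemma Ex_const' (c : ℝ) : Ex Q (fun _ : E n => c) = c := by
  have := S130.gQ_prob (n := n)
  rw [S130.Ex_eq]
  simp

end Vale.Agent.P254.SP127
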