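import Vale.Agent.P254.SP.H127.Slack
import Vale.Agent.P254.SP.H620.DK
import Vale.Agent.P254.S.H130.Main

/-!
# P254, block SP: the fields `f(G)`, `G = (t')⁻¹(D²φ)`

For `h : BP φ V a b M κ`, `hF : Fr P φ U s` and `f` of class `C¹` on `ℝ`: the entries of
`fc U s f = f(G)` are bounded and Lipschitz; at every point where the entries of `D²φ` are
differentiable, `f(G)` is differentiable and in the eigenframe
`(Uᵀ ∂_k f(G) U)_ij = f[s_i,s_j] (uu_k)_ij`, `(Uᵀ ∂_k D²φ U)_ij = L[s_i,s_j] (uu_k)_ij`.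
-/

open MeasureTheory Matrix Finset Filter Topology

noncomputable section

namespace Vale.Agent.P254.SP127

open Vale.Agent.P227.M Vale.Agent.P254.S Vale.Agent.P254.SP Vale.Agent.P254.SP620

lemma dd_eq (F F' : ℝ → ℝ) (x y : ℝ) : S130.dd F F' x y = dd F F' x y := by
  unfold S130.dd dd
  rfl

variable {P : F1} {n : ℕ} {φ V : E n → ℝ} {a b M κ : ℝ}
  {U : E n → Matrix (Fin n) (Fin n) ℝ} {s : E n → Fin n → ℝ}

lemma spec (hF : Fr P φ U s) : S.Spec (hess φ) U (fun z i => P.L (s z i)) :=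
  ⟨hF.orth, fun z => hF.dec z⟩

lemma orthT (hF : Fr P φ U s) (z : E n) : (U z)ᵀ * U z = 1 := mul_eq_one_comm.1 (hF.orth z)

lemma dec (hF : Fr P φ U s) (z : E n) : Dec (hess φ z) (U z) (fun i => P.L (s z i)) :=
  ⟨orthT hF z, hF.dec z⟩

lemma L_mem (h : BP φ V a b M κ) (hF : Fr P φ U s) (z : E n) (i : Fin n) :
    P.L (s z i) ∈ Set.Icc a (max a b) := by
  have h1 := S130.eig_mem h (spec hF) z i
  exact ⟨h1.1, h1.2.trans (le_max_right _ _)⟩

lemma s_mem (h : BP φ V a b M κ) (hF : Fr P φ U s) (z : E n) (i : Fin n) :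
    s z i ∈ Set.Icc (P.g a) (P.g (max a b)) := by
  have h1 := L_mem h hF z i
  have h2 : 0 < max a b := h.a_pos.trans_le (le_max_left _ _)
  constructor
  · rw [← (L_strictMono P).le_iff_le, P.L_g a h.a_pos]
    exact h1.1
  · rw [← (L_strictMono P).le_iff_le, P.L_g _ h2]
    exact h1.2

lemma g_le (P : F1) {a b : ℝ} (ha : 0 < a) : P.g a ≤ P.g (max a b) := by
  have h2 : 0 < max a b := ha.trans_le (le_max_left _ _)
  rw [← (L_strictMono P).le_iff_le, P.L_g a ha, P.L_g _ h2]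
  exact le_max_left _ _

/-- `f(G) = (f ∘ g)(D²φ)` -/
lemma fc_eq_mf (hF : Fr P φ U s) (f : ℝ → ℝ) (z : E n) :
    fc U s f z = mf (fun m => f (P.g m)) (hess φ z) := by
  rw [(dec hF z).mf]
  unfold fc S130.fm
  simp only [P.g_L]

lemma fg_hasDeriv (P : F1) {f f' : ℝ → ℝ} (hf : ∀ x, HasDerivAt f (f' x) x) {m : ℝ} (hm : 0 < m) :
    HasDerivAt (fun m => f (P.g m)) (f' (P.g m) * (P.L' (P.g m))⁻¹) m :=
  (hf (P.g m)).comp m (g_hasDeriv P hm)

lemma fg_cont (P : F1) {f' : ℝ → ℝ} (hf' : Continuous f') :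
    ContinuousOn (fun m => f' (P.g m) * (P.L' (P.g m))⁻¹) (Set.Ioi 0) := by
  have hg := g_continuousOn P
  exact (hf'.comp_continuousOn hg).mul
    ((P.L'_cont.comp_continuousOn hg).inv₀ fun x _ => (P.L'_pos _).ne')

/-- chain rule for divided differences -/
lemma dd_chain (P : F1) (f f' : ℝ → ℝ) (x y : ℝ) :
    dd (fun m => f (P.g m)) (fun m => f' (P.g m) * (P.L' (P.g m))⁻¹) (P.L x) (P.L y)
      * dd P.L P.L' x y = dd f f' x y := by
  by_cases hxy : x = y
  · subst hxy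
    simp only [dd, if_true, P.g_L]
    have h3 := (P.L'_pos x).ne'
    field_simp
  · have hL : P.L x ≠ P.L y := fun h => hxy ((L_inj P).1 h)
    simp only [dd, if_neg hxy, if_neg hL, P.g_L]
    have h3 : x - y ≠ 0 := sub_ne_zero.2 hxy
    have h4 : P.L x - P.L y ≠ 0 := sub_ne_zero.2 hL
    field_simp

lemma dd_id (x y : ℝ) : dd (fun x => x) (fun _ => 1) x y = 1 := by
  unfold dd
  split_ifs with h
  · rfl
  · exact div_self (sub_ne_zero.2 h)

/-- `f(G)` is differentiable where `D²φ` is -/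
lemma hasFD_fc (h : BP φ V a b M κ) (hF : Fr P φ U s) {f f' : ℝ → ℝ}
    (hf : ∀ x, HasDerivAt f (f' x) x) (hf' : Continuous f') {z : E n}
    (hz : ∀ i j, DifferentiableAt ℝ (fun y => hess φ y i j) z) (i j : Fin n) :
    HasFDerivAt (fun y => fc U s f y i j)
      (DKL (fun m => f (P.g m)) (fun m => f' (P.g m) * (P.L' (P.g m))⁻¹) (U z)
        (fun i => P.L (s z i)) (fun i j => fderiv ℝ (fun y => hess φ y i j) z) i j) z := by
  have e : (fun y => fc U s f y i j) = fun y => mf (fun m => f (P.g m)) (hess φ y) i j := by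
    funext y
    rw [fc_eq_mf hF]
  rw [e]
  refine hasFD_mf (c := a) (C := max a b) (le_max_left _ _) (fun x hx => ?_) ?_ ?_ (dec hF z)
    (L_mem h hF z) (fun i j => (hz i j).hasFDerivAt) i j
  · exact (fg_hasDeriv P hf (h.a_pos.trans_le hx.1)).hasDerivWithinAt
  · exact (fg_cont P hf').mono fun x hx => h.a_pos.trans_le hx.1
  · exact Eventually.of_forall fun y => ⟨U y, _, dec hF y, L_mem h hF y⟩

lemma pdM_fc (h : BP φ V a b M κ) (hF : Fr P φ U s) {f f' : ℝ → ℝ}
    (hf : ∀ x, HasDerivAt f (f' x) x) (hf' : Continuous f') {z : E n}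
    (hz : ∀ i j, DifferentiableAt ℝ (fun y => hess φ y i j) z) (k : Fin n) :
    pdM k (fc U s f) z = DK (fun m => f (P.g m)) (fun m => f' (P.g m) * (P.L' (P.g m))⁻¹) (U z)
        (fun i => P.L (s z i)) (pdM k (hess φ) z) := by
  ext i j
  show fderiv ℝ (fun y => fc U s f y i j) z (ei k) = _
  rw [(hasFD_fc h hF hf hf' hz i j).fderiv, DKL_apply]
  rfl

/-- the frame form of `∂_k f(G)` in terms of `∂_k D²φ` -/
lemma frame_hess (h : BP φ V a b M κ) (hF : Fr P φ U s) {f f' : ℝ → ℝ}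
    (hf : ∀ x, HasDerivAt f (f' x) x) (hf' : Continuous f') {z : E n}
    (hz : ∀ i j, DifferentiableAt ℝ (fun y => hess φ y i j) z) (k i j : Fin n) :
    ((U z)ᵀ * pdM k (fc U s f) z * U z) i j
      = dd (fun m => f (P.g m)) (fun m => f' (P.g m) * (P.L' (P.g m))⁻¹) (P.L (s z i)) (P.L (s z j))
        * ((U z)ᵀ * pdM k (hess φ) z * U z) i j := by
  rw [pdM_fc h hF hf hf' hz, DK_frame (orthT hF z), dd_eq]

/-- **frame form of `∂_k D²φ`** -/
theorem frame_L (h : BP φ V a b M κ) (hF : Fr P φ U s) {z : E n}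
    (hz : ∀ i j, DifferentiableAt ℝ (fun y => hess φ y i j) z) (k i j : Fin n) :
    ((U z)ᵀ * pdM k (hess φ) z * U z) i j = dd P.L P.L' (s z i) (s z j) * uu U s k z i j := by
  have h1 := frame_hess h hF (f := fun x => x) (f' := fun _ => 1) (fun x => hasDerivAt_id x)
    continuous_const hz k i j
  have h2 := dd_chain P (fun x => x) (fun _ => 1) (s z i) (s z j)
  rw [dd_id] at h2
  show _ = _ * ((U z)ᵀ * pdM k (fc U s fun x => x) z * U z) i j
  rw [h1, ← mul_assoc, mul_comm (dd P.L P.L' _ _), h2, one_mul]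

/-- **frame form of `∂_k f(G)`** -/
theorem frame_fc (h : BP φ V a b M κ) (hF : Fr P φ U s) {f f' : ℝ → ℝ}
    (hf : ∀ x, HasDerivAt f (f' x) x) (hf' : Continuous f') {z : E n}
    (hz : ∀ i j, DifferentiableAt ℝ (fun y => hess φ y i j) z) (k i j : Fin n) :
    ((U z)ᵀ * pdM k (fc U s f) z * U z) i j = dd f f' (s z i) (s z j) * uu U s k z i j := by
  rw [frame_hess h hF hf hf' hz, frame_L h hF hz, ← mul_assoc, dd_chain]

/-- `∂_k D²φ` is totally symmetric -/
lemma symm3 (h : BP φ V a b M κ) {z : E n}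
    (hz : ∀ i j, DifferentiableAt ℝ (fun y => hess φ y i j) z) (i j k : Fin n) :
    pdM i (hess φ) z j k = pdM j (hess φ) z i k := rad_third h.C2 hz i j k

/-- the Frobenius norm in the frame -/
lemma frob_fc (h : BP φ V a b M κ) (hF : Fr P φ U s) {f f' : ℝ → ℝ}
    (hf : ∀ x, HasDerivAt f (f' x) x) (hf' : Continuous f') {z : E n}
    (hz : ∀ i j, DifferentiableAt ℝ (fun y => hess φ y i j) z) (k : Fin n) :
    ∑ i, ∑ j, (pdM k (fc U s f) z i j) ^ 2
      = ∑ i, ∑ j, (dd f f' (s z i) (s z j) * uu U s k z i j) ^ 2 := by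
  rw [← S130.frob_orth (orthT hF z)]
  exact Finset.sum_congr rfl fun i _ => Finset.sum_congr rfl fun j _ => by
    rw [frame_fc h hF hf hf' hz]

/-- entries of `f(G)` are bounded and Lipschitz -/
theorem mbl_fc (h : BP φ V a b M κ) (hF : Fr P φ U s) {f f' : ℝ → ℝ}
    (hf : ∀ x, HasDerivAt f (f' x) x) (hf' : Continuous f') : S130.MBL (fc U s f) := by
  intro i j
  have hac : a ≤ max a b := le_max_left _ _
  -- bound of `f ∘ g` and of its derivative on `[a, max a b]`
  have hFd : ∀ x ∈ Set.Icc a (max a b), HasDerivWithinAt (fun m => f (P.g m))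
      (f' (P.g x) * (P.L' (P.g x))⁻¹) (Set.Icc a (max a b)) x :=
    fun x hx => (fg_hasDeriv P hf (h.a_pos.trans_le hx.1)).hasDerivWithinAt
  have hFc : ContinuousOn (fun m => f' (P.g m) * (P.L' (P.g m))⁻¹) (Set.Icc a (max a b)) :=
    (fg_cont P hf').mono fun x hx => h.a_pos.trans_le hx.1
  obtain ⟨B, hB⟩ := isCompact_Icc.exists_bound_of_continuousOn
    (f := fun m => f (P.g m)) (s := Set.Icc a (max a b)) fun x hx => (hFd x hx).continuousWithinAt
  obtain ⟨B', hB'⟩ := isCompact_Icc.exists_bound_of_continuousOn hFc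
  have hB0 : 0 ≤ B := (norm_nonneg _).trans (hB a ⟨le_rfl, hac⟩)
  have hB'0 : 0 ≤ B' := (norm_nonneg _).trans (hB' a ⟨le_rfl, hac⟩)
  refine ⟨⟨B, fun z => ?_⟩, B' * (n * |M|), fun x y => ?_⟩
  · show |fc U s f z i j| ≤ B
    rw [fc_eq_mf hF]
    exact (dec hF z).mf_le (fun i => hB _ (L_mem h hF z i)) hB0 i j
  · show |fc U s f x i j - fc U s f y i j| ≤ _
    rw [fc_eq_mf hF, fc_eq_mf hF]
    have h1 : ∀ i j, |P.L (s x i) - P.L (s y j)| * B' ≥
        |f (P.g (P.L (s x i))) - f (P.g (P.L (s y j)))| := by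
      intro i j
      have h2 := (convex_Icc a (max a b)).norm_image_sub_le_of_norm_hasDerivWithin_le hFd hB'
        (L_mem h hF y j) (L_mem h hF x i)
      rw [mul_comm]
      exact h2
    have h3 := mf_lip (dec hF x) (dec hF y) (F := fun m => f (P.g m)) (L := B')
      (fun i j => by rw [mul_comm]; exact h1 i j)
    have h4 : fr (hess φ x - hess φ y) ≤ (Fintype.card (Fin n) * (|M| * ‖x - y‖)) ^ 2 := by
      refine fr_le fun i j => ?_
      rw [Matrix.sub_apply]
      exact (h.lip i j x y).trans (mul_le_mul_of_nonneg_right (le_abs_self M) (norm_nonneg _))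
    have h5 : fr (mf (fun m => f (P.g m)) (hess φ x) - mf (fun m => f (P.g m)) (hess φ y))
        ≤ (B' * (n * |M|) * ‖x - y‖) ^ 2 := by
      refine h3.trans ?_
      rw [Fintype.card_fin] at h4
      calc B' ^ 2 * fr (hess φ x - hess φ y) ≤ B' ^ 2 * (n * (|M| * ‖x - y‖)) ^ 2 :=
            mul_le_mul_of_nonneg_left h4 (sq_nonneg _)
        _ = _ := by ring
    have h6 := entry_le (by positivity) h5 i j
    rwa [Matrix.sub_apply] at h6

lemma mbl_hess' (h : BP φ V a b M κ) (hF : Fr P φ U s) : S130.MBL (hess φ) :=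
  S130.mbl_hess h (spec hF)

/-- almost everywhere the entries of `D²φ` are differentiable -/
lemma ae_diff (h : BP φ V a b M κ) (hF : Fr P φ U s) :
    ∀ᵐ z ∂(S130.gQ n), ∀ i j, DifferentiableAt ℝ (fun y => hess φ y i j) z :=
  S130.ae_diff (mbl_hess' h hF)

lemma mbl_GG (h : BP φ V a b M κ) (hF : Fr P φ U s) : S130.MBL (GG U s) :=
  mbl_fc h hF (f := fun x => x) (f' := fun _ => 1) (fun x => hasDerivAt_id x) continuous_const

end Vale.Agent.P254.SP127
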