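import Vale.Agent.P254.SP.H151.ColIface2
import Vale.Agent.P254.SP.H38.Forms

/-!
P254, block SP (helper127): the pointwise forms of mode 0 (`q > 0` large, no trial field).

`FormA0`, `FormB0`: `c` times the column term of mode 0 at the spectral value `g`; the coefficients `γ`
of the kernels are functions of `g`.  `PW0 P q ν b₁ ρ w bw m`: the numbers `m` certify the column `q`.
The theorem `PW0 → Mode0` is `mode0_of` in `SP/H127/PW0.lean`.
-/

set_option autoImplicit false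

open MeasureTheory

namespace Vale.Agent.P254.SP127

open Vale.Agent.P227.M Vale.Agent.P254.S Vale.Agent.P254.SP
open Vale.Agent.P254.SP38 (w0 th th1)

/-- the multipliers of one column in mode 0 (everything in the normalisation of `cT0`, that is,
`c` times the column term) -/
structure Mult0 (N : ℕ) where
  (c L1 L2 L3 L4 L5 L6 L7 T0 Mt Mr B4 : ℝ)
  (γ : Fin N → ℝ → ℝ)

/-- the form in `(f, α, k₁)`, mode 0 -/
noncomputable def FormA0 (P : F1) {N : ℕ} (ν b₁ : ℝ) (m : Mult0 N) (g f al k1 : ℝ) : ℝ :=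
  m.c * f ^ 2 - m.c * (P.r' g * f + k1) ^ 2 - m.c * (P.r' g ^ 2 * al * f)
    + m.L5 * al ^ 2 + m.L7 * (al * f) + m.B4 * (P.r' g ^ 2 * al ^ 2 + P.r' g ^ 2 * al * f)
    - m.L6 * f ^ 2 - m.c * ν * f ^ 2 + m.c * b₁ * k1 ^ 2

/-- the form in `(x, y, ζ, κ)`, mode 0 -/
noncomputable def FormB0 (P : F1) {N : ℕ} (q ν ρ : ℝ) (bw : Fin N → ℝ) (m : Mult0 N)
    (g x y ze : ℝ) (ka : Fin N → ℝ) : ℝ :=
  -(m.c * y ^ 2)
    + m.c * ((q - 1) * (w0 P g * x ^ 2) + w0 P g * x * ze + th P g * x * y)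
    + (m.c - m.c * Real.log m.c) * x ^ 2 - P.L g ^ 2 * x ^ 2
    + m.L1 * (x * y) + m.L2 * (g * x * y - y ^ 2) + m.L3 * (x * ze) + m.L4 * (g * x ^ 2)
    - m.L5 * q * x ^ 2
    + m.T0 * (g * g * x ^ 2 - g * x * y - 1 * x * (q * x + ze))
    + m.Mt * (th P g * g * x ^ 2 - th P g * x * y - th1 P g * x * (q * x + ze))
    + m.Mr * (P.r g * g * x ^ 2 - P.r g * x * y - P.r' g * x * (q * x + ze))
    - m.B4 * (P.r' g ^ 2 * x * (q * x + ze))
    + 2 * m.L6 * y ^ 2 + x * ∑ i, m.γ i g * ka i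
    + m.c * ν * q⁻¹ * ze ^ 2 + ∑ i, m.c * bw i * q⁻¹ * ka i ^ 2
    - m.c * ρ * (y ^ 2 + min 1 ((q - 1) ^ 2) * x ^ 2)

/-- the numbers `m` certify the column `q` in mode 0 -/
structure PW0 (P : F1) (q ν b₁ ρ : ℝ) {N : ℕ} (w : Fin N → ℝ → ℝ → ℝ) (bw : Fin N → ℝ)
    (m : Mult0 N) : Prop where
  c_pos : 0 < m.c
  L6_nonneg : 0 ≤ m.L6
  ker : ∀ x y, m.c * SP151.ck P x y - m.Mt * (dd (th P) (th1 P) x y - th1 P x)
      - m.Mr * (dd P.r P.r' x y - P.r' x) - m.B4 * (P.r' y ^ 2 - P.r' x ^ 2)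
      = ∑ i, m.γ i x * w i x y
  formA : ∀ g f al k1, 0 ≤ FormA0 P ν b₁ m g f al k1
  formB : ∀ g x y ze (ka : Fin N → ℝ), 0 ≤ FormB0 P q ν ρ bw m g x y ze ka

end Vale.Agent.P254.SP127
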