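import Vale.Agent.P254.SP.H127.Meas
import Vale.Agent.P254.SP.IfaceB

/-!
# P254, block SP: `StmtMeas` (measurability of kernel expressions in an arbitrary eigenframe)
-/

open MeasureTheory Matrix Finset Filter Topology

noncomputable section

namespace Vale.Agent.P254.SP127

open Vale.Agent.P227.M Vale.Agent.P254.S Vale.Agent.P254.SP Vale.Agent.P254.SP620
open Vale.Agent.P254.S130 (MBM BM MBL BL gQ)

variable {n : ℕ}

/-- entries are measurable -/
def MM (D : E n → Matrix (Fin n) (Fin n) ℝ) : Prop := ∀ i j, Measurable fun z => D z i j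

lemma MM.add {A B : E n → Matrix (Fin n) (Fin n) ℝ} (hA : MM A) (hB : MM B) :
    MM fun z => A z + B z := fun i j => (hA i j).add (hB i j)

lemma MM.mul {A B : E n → Matrix (Fin n) (Fin n) ℝ} (hA : MM A) (hB : MM B) :
    MM fun z => A z * B z := fun i j => by
  simp only [mul_apply]
  exact Finset.measurable_fun_sum _ fun k _ => (hA i k).mul (hB k j)

lemma MM.smul {A : E n → Matrix (Fin n) (Fin n) ℝ} (c : ℝ) (hA : MM A) :
    MM fun z => c • A z := fun i j => (hA i j).const_mul c

section sw

variable {c C : ℝ} {G U : E n → Matrix (Fin n) (Fin n) ℝ} {s : E n → Fin n → ℝ}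

/-- the subalgebra of the functions with measurable Schur fields -/
def subM (hU : ∀ z, (U z)ᵀ * U z = 1) (hm : ∀ z i, s z i ∈ Set.Icc c C) :
    Subalgebra ℝ C(Set.Icc c C × Set.Icc c C, ℝ) where
  carrier := {f | ∀ D, MM D → MM (TF hm U f D)}
  mul_mem' := by
    intro f g hf hg D hD
    have h := hf _ (hg D hD)
    have e : TF hm U (f * g) D = TF hm U f (TF hm U g D) := by
      funext z
      refine frame_inj (hU z) ?_
      rw [TF_frame hU, TF_frame hU, TF_frame hU]
      ext i j
      simp only [of_apply, ContinuousMap.mul_apply]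
      ring
    rw [e]
    exact h
  add_mem' := by
    intro f g hf hg D hD
    have e : TF hm U (f + g) D = fun z => TF hm U f D z + TF hm U g D z := by
      funext z
      refine frame_inj (hU z) ?_
      rw [Matrix.mul_add, Matrix.add_mul, TF_frame hU, TF_frame hU, TF_frame hU]
      ext i j
      simp only [of_apply, ContinuousMap.add_apply, Matrix.add_apply]
      ring
    rw [e]
    exact (hf D hD).add (hg D hD)
  algebraMap_mem' := by
    intro r D hD
    have e : TF hm U (algebraMap ℝ _ r) D = fun z => r • D z := by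
      funext z
      refine frame_inj (hU z) ?_
      rw [Matrix.mul_smul, Matrix.smul_mul, TF_frame hU]
      ext i j
      simp only [of_apply, Matrix.smul_apply, smul_eq_mul]
      rfl
    rw [e]
    exact hD.smul r

lemma fst_memM (hU : ∀ z, (U z)ᵀ * U z = 1) (hm : ∀ z i, s z i ∈ Set.Icc c C)
    (hG : MM G) (hGe : ∀ z, G z = U z * diagonal (s z) * (U z)ᵀ) :
    cfst c C ∈ subM hU hm := by
  intro D hD
  have e : TF hm U (cfst c C) D = fun z => G z * D z := by
    funext z
    refine frame_inj (hU z) ?_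
    rw [TF_frame hU, hGe z]
    have h1 : (U z)ᵀ * (U z * diagonal (s z) * (U z)ᵀ * D z) * U z
        = diagonal (s z) * ((U z)ᵀ * D z * U z) := by
      calc (U z)ᵀ * (U z * diagonal (s z) * (U z)ᵀ * D z) * U z
          = ((U z)ᵀ * U z) * diagonal (s z) * ((U z)ᵀ * D z * U z) := by
            simp only [Matrix.mul_assoc]
        _ = _ := by rw [hU z, Matrix.one_mul]
    rw [h1]
    ext i j
    rw [of_apply, diagonal_mul]
    rfl
  rw [e]
  exact hG.mul hD

lemma snd_memM (hU : ∀ z, (U z)ᵀ * U z = 1) (hm : ∀ z i, s z i ∈ Set.Icc c C)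
    (hG : MM G) (hGe : ∀ z, G z = U z * diagonal (s z) * (U z)ᵀ) :
    csnd c C ∈ subM hU hm := by
  intro D hD
  have e : TF hm U (csnd c C) D = fun z => D z * G z := by
    funext z
    refine frame_inj (hU z) ?_
    rw [TF_frame hU, hGe z]
    have h1 : (U z)ᵀ * (D z * (U z * diagonal (s z) * (U z)ᵀ)) * U z
        = ((U z)ᵀ * D z * U z) * diagonal (s z) := by
      calc (U z)ᵀ * (D z * (U z * diagonal (s z) * (U z)ᵀ)) * U z
          = ((U z)ᵀ * D z * U z) * diagonal (s z) * ((U z)ᵀ * U z) := by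
            simp only [Matrix.mul_assoc]
        _ = _ := by rw [hU z, Matrix.mul_one]
    rw [h1]
    ext i j
    rw [of_apply, mul_diagonal, mul_comm]
    rfl
  rw [e]
  exact hD.mul hG

/-- every continuous function on the square has measurable Schur fields -/
theorem TF_mm (hU : ∀ z, (U z)ᵀ * U z = 1) (hm : ∀ z i, s z i ∈ Set.Icc c C)
    (hG : MM G) (hGe : ∀ z, G z = U z * diagonal (s z) * (U z)ᵀ)
    (f : C(Set.Icc c C × Set.Icc c C, ℝ)) {D : E n → Matrix (Fin n) (Fin n) ℝ} (hD : MM D) :
    MM (TF hm U f D) := by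
  intro i j
  have hsep : (subM hU hm).SeparatesPoints := by
    intro x y hxy
    by_cases h : (x.1 : ℝ) = y.1
    · refine ⟨csnd c C, ⟨_, snd_memM hU hm hG hGe, rfl⟩, fun h2 => hxy ?_⟩
      exact Prod.ext (Subtype.ext h) (Subtype.ext h2)
    · exact ⟨cfst c C, ⟨_, fst_memM hU hm hG hGe, rfl⟩, h⟩
  have h1 := ContinuousMap.subalgebra_topologicalClosure_eq_top_of_separatesPoints
    (subM hU hm) hsep
  have h2 : f ∈ (subM hU hm).topologicalClosure := by
    rw [h1]
    exact Algebra.mem_top
  have h3 : f ∈ closure ((subM hU hm : Subalgebra ℝ C(Set.Icc c C × Set.Icc c C, ℝ)) :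
      Set C(Set.Icc c C × Set.Icc c C, ℝ)) := h2
  obtain ⟨F, hF, hlim⟩ := mem_closure_iff_seq_limit.1 h3
  refine measurable_of_tendsto_metrizable (f := fun k z => TF hm U (F k) D z i j)
    (fun k => hF k D hD i j) (tendsto_pi_nhds.2 fun z => ?_)
  have hc : Continuous fun f : C(Set.Icc c C × Set.Icc c C, ℝ) => TF hm U f D z i j := by
    unfold TF
    simp only [conj_entry, of_apply]
    refine continuous_finsetSum _ fun k _ => continuous_finsetSum _ fun l _ => ?_
    refine (continuous_const.mul (Continuous.mul ?_ continuous_const)).mul continuous_const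
    exact continuous_eval_const _
  exact (hc.tendsto f).comp hlim

/-- **measurability of the Schur fields** (no boundedness of `D`) -/
theorem sch_mm (hU : ∀ z, (U z)ᵀ * U z = 1) (hm : ∀ z i, s z i ∈ Set.Icc c C)
    (hG : MM G) (hGe : ∀ z, G z = U z * diagonal (s z) * (U z)ᵀ)
    {w : ℝ → ℝ → ℝ}
    (hw : ContinuousOn (fun p : ℝ × ℝ => w p.1 p.2) (Set.Icc c C ×ˢ Set.Icc c C))
    {D : E n → Matrix (Fin n) (Fin n) ℝ} (hD : MM D) :
    MM fun z => sch w (U z) (s z) (D z) := by
  have hc : Continuous fun p : Set.Icc c C × Set.Icc c C => w (p.1 : ℝ) (p.2 : ℝ) := by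
    refine hw.comp_continuous (f := fun p : Set.Icc c C × Set.Icc c C => ((p.1 : ℝ), (p.2 : ℝ)))
      (by fun_prop) fun p => ⟨p.1.2, p.2.2⟩
  exact TF_mm hU hm hG hGe ⟨_, hc⟩ hD

end sw

variable {P : F1} {φ V : E n → ℝ} {a b M κ : ℝ}
  {U : E n → Matrix (Fin n) (Fin n) ℝ} {s : E n → Fin n → ℝ}

lemma mm_GG (h : BP φ V a b M κ) (hF : Fr P φ U s) : MM (GG U s) := fun i j => by
  obtain ⟨K, hK⟩ := (mbl_GG h hF i j).lipschitz
  exact hK.continuous.measurable

/-- every continuous Schur field of a measurable field is measurable -/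
theorem mm_sch (h : BP φ V a b M κ) (hF : Fr P φ U s) {w : ℝ → ℝ → ℝ}
    (hw : Continuous fun p : ℝ × ℝ => w p.1 p.2)
    {D : E n → Matrix (Fin n) (Fin n) ℝ} (hD : MM D) :
    MM fun z => sch w (U z) (s z) (D z) :=
  sch_mm (orthT hF) (s_mem h hF) (mm_GG h hF) (fun _ => rfl) hw.continuousOn hD

lemma mm_pdM (A : E n → Matrix (Fin n) (Fin n) ℝ) (k : Fin n) : MM (pdM k A) :=
  fun _ _ => measurable_fderiv_apply_const ℝ _ (ei k)

lemma GG_symm (U : E n → Matrix (Fin n) (Fin n) ℝ) (s : E n → Fin n → ℝ) (z : E n) (i j : Fin n) :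
    GG U s z i j = GG U s z j i := by
  have h : (GG U s z)ᵀ = GG U s z := by
    unfold GG fc
    rw [transpose_mul, transpose_mul, transpose_transpose, diagonal_transpose, Matrix.mul_assoc]
  exact (congrFun (congrFun h i) j).symm

lemma pdM_GG_symm (U : E n → Matrix (Fin n) (Fin n) ℝ) (s : E n → Fin n → ℝ) (k : Fin n)
    (z : E n) : (pdM k (GG U s) z).IsSymm := by
  ext i j
  show pd k (fun y => GG U s y j i) z = pd k (fun y => GG U s y i j) z
  congr 1
  funext y
  exact GG_symm U s y j i

theorem stmtMeas : StmtMeas := by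
  intro P n φ V a b M κ U s hD
  have h := hD.bp
  have hF := hD.fr
  refine ⟨?_, ?_, fun k z => pdM_GG_symm U s k z, fun k => mm_pdM (GG U s) k, ?_⟩
  · refine ⟨max |P.g a| |P.g (max a b)|, fun z i => ?_⟩
    have h1 := s_mem h hF z i
    exact abs_le_max_abs_abs h1.1 h1.2
  · have h1 : ∀ k i j, ∃ R, ∀ z, |pdM k (GG U s) z i j| ≤ R := fun k i j =>
      (mbm_pdM (mbl_GG h hF) k i j).2
    choose R hR using h1
    set R0 : ℝ := ∑ k, ∑ i, ∑ j, |R k i j| with hR0
    have hb : ∀ k z i j, |pdM k (GG U s) z i j| ≤ R0 := by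
      intro k z i j
      refine ((hR k i j z).trans (le_abs_self _)).trans ?_
      calc |R k i j| ≤ ∑ j, |R k i j| :=
            Finset.single_le_sum (f := fun j => |R k i j|) (fun _ _ => abs_nonneg _)
              (Finset.mem_univ j)
        _ ≤ ∑ i, ∑ j, |R k i j| := Finset.single_le_sum (f := fun i => ∑ j, |R k i j|)
            (fun _ _ => Finset.sum_nonneg fun _ _ => abs_nonneg _) (Finset.mem_univ i)
        _ ≤ _ := Finset.single_le_sum (f := fun k => ∑ i, ∑ j, |R k i j|)
            (fun _ _ => Finset.sum_nonneg fun _ _ => Finset.sum_nonneg fun _ _ => abs_nonneg _)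
            (Finset.mem_univ k)
    have h0 : 0 ≤ R0 := Finset.sum_nonneg fun _ _ => Finset.sum_nonneg fun _ _ =>
      Finset.sum_nonneg fun _ _ => abs_nonneg _
    refine ⟨max R0 (Fintype.card (Fin n) * R0), fun k z i j =>
      ⟨(hb k z i j).trans (le_max_left _ _), ?_⟩⟩
    refine le_trans ?_ (le_max_right _ _)
    have h2 : fr ((U z)ᵀ * pdM k (GG U s) z * U z) ≤ (Fintype.card (Fin n) * R0) ^ 2 := by
      rw [fr_orth (orthT hF z) (orthT hF z)]
      exact fr_le (hb k z)
    exact entry_le (by positivity) h2 i j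
  · intro c hc B C hB hC
    have hw : Continuous fun p : ℝ × ℝ => c p.1 p.2 := hc
    have e : (fun z => ∑ i, ∑ j, c (s z i) (s z j) * ((U z).transpose * B z * U z) i j
        * ((U z).transpose * C z * U z) i j)
        = fun z => ∑ i, ∑ j, sch c (U z) (s z) (B z) i j * C z i j := by
      funext z
      rw [← frame_pair (orthT hF z)]
      exact Finset.sum_congr rfl fun i _ => Finset.sum_congr rfl fun j _ => by ring
    rw [e]
    exact Finset.measurable_fun_sum _ fun i _ => Finset.measurable_fun_sum _ fun j _ =>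
      (mm_sch h hF hw hB i j).mul (hC i j)

end Vale.Agent.P254.SP127
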