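import Vale.Agent.P254.SP.H127.Forms0
import Vale.Agent.P254.SP.H127.Budget
import Vale.Agent.P254.SP.H515.Lin
import Vale.Agent.P254.SP.H649.Gap
import Vale.Agent.P254.SP.H545.StUps
import Vale.Agent.P254.SP.H888.C4

/-!
P254, block SP (helper127): mode 0, from the pointwise forms to the column inequality.
-/

set_option autoImplicit false

open MeasureTheory Matrix Finset

noncomputable section

namespace Vale.Agent.P254.SP127

open Vale.Agent.P227.M Vale.Agent.P254.S Vale.Agent.P254.SP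
open Vale.Agent.P254.SP38 (w0 th th1)
open Vale.Agent.P254.SP151 (kA kk ck nDF nF nZ budg cT0 Mode0)

variable {n : ℕ}

/-! ### `MP` functions as a module, `Ex Q` as a linear form -/

/-- `MP` functions as a submodule -/
def MPS (n : ℕ) : Submodule ℝ (E n → ℝ) where
  carrier := {f | MP f}
  add_mem' hf hg := MP.add hf hg
  zero_mem' := MP.const 0
  smul_mem' c _ hf := MP.smul c hf

/-- `Ex Q` as a linear form -/
def ExL (n : ℕ) : MPS n →ₗ[ℝ] ℝ where
  toFun f := Ex Q f.1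
  map_add' f g := Ex_add' f.2 g.2
  map_smul' c f := Ex_smul' c f.1

/-- an element of `MPS` -/
def tm {f : E n → ℝ} (hf : MP f) : MPS n := ⟨f, hf⟩

lemma ExL_tm {f : E n → ℝ} (hf : MP f) : ExL n (tm hf) = Ex Q f := rfl

lemma tm_apply {f : E n → ℝ} (hf : MP f) (z : E n) : (tm hf : E n → ℝ) z = f z := rfl

variable {P : F1} {φ V : E n → ℝ} {a b M κ : ℝ}
  {U : E n → Matrix (Fin n) (Fin n) ℝ} {s : E n → Fin n → ℝ}

lemma th_hasDeriv (P : F1) (x : ℝ) : HasDerivAt (th P) (th1 P x) x := by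
  have h := (P.hr x).add ((P.hr x).mul (P.hr' x))
  refine h.congr_deriv ?_
  unfold th1
  ring

lemma th1_cont (P : F1) : Continuous (th1 P) := by
  have h3 := r_cont P
  have h4 := r'_cont P
  have h5 := P.r''_cont
  unfold th1
  fun_prop

lemma th_cont (P : F1) : Continuous (th P) := by
  have h3 := r_cont P
  have h4 := r'_cont P
  unfold th
  fun_prop

lemma w0_cont (P : F1) : Continuous (w0 P) := by
  have h3 := r_cont P
  have h4 := r'_cont P
  have h5 := P.r''_cont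
  unfold w0
  fun_prop

/-- the `kA` field -/
lemma FC.kA (h : BP φ V a b M κ) (hF : Fr P φ U s) {w : ℝ → ℝ → ℝ}
    (hw : Continuous fun p : ℝ × ℝ => w p.1 p.2) (e : Fin n → ℝ) : FC U (SP151.kA w U s e) :=
  FC.sum (U := U) Finset.univ (c := fun k => SP151.kk w U s k ((AA U s k).mulVec e))
    fun k _ => FC.uu h hF hw k (FC.xx _)

/-- the part in `(f, α, k₁)` -/
theorem exA (h : BP φ V a b M κ) (hF : Fr P φ U s) {N : ℕ} (ν b₁ : ℝ) (m : Mult0 N)
    (e : Fin n → ℝ) :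
    Ex Q (fun z => ∑ k, ∑ i, FormA0 P ν b₁ m (s z i) (SP.col U (Fa U s k) e z i)
        (SP.xx U ((AA U s k).mulVec e) z i) (SP.kap P.r P.r' U s k e z i))
      = (m.c - m.L6 - m.c * ν) * Ex Q (fun z => ∑ k, ∑ i, SP.col U (Fa U s k) e z i ^ 2)
        + (-m.c) * Ex Q (fun z => ∑ k, ∑ i, SP.be P U s e k z i ^ 2)
        + (m.B4 - m.c) * Ex Q (fun z => ∑ k, ∑ i, P.r' (s z i) ^ 2
            * SP.xx U ((AA U s k).mulVec e) z i * SP.col U (Fa U s k) e z i)
        + m.L5 * Ex Q (fun z => ∑ k, ∑ i, SP.xx U ((AA U s k).mulVec e) z i ^ 2)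
        + m.L7 * Ex Q (fun z => ∑ k, ∑ i, SP.xx U ((AA U s k).mulVec e) z i
            * SP.col U (Fa U s k) e z i)
        + m.B4 * Ex Q (fun z => ∑ k, ∑ i, P.r' (s z i) ^ 2
            * SP.xx U ((AA U s k).mulVec e) z i ^ 2)
        + m.c * b₁ * Ex Q (fun z => ∑ k, ∑ i, SP.kap P.r P.r' U s k e z i ^ 2) := by
  have hO := hF.orth
  have cS : Continuous fun x => P.r' x ^ 2 := (r'_cont P).pow 2
  have m1 : MP fun z => ∑ k, ∑ i, SP.col U (Fa U s k) e z i ^ 2 :=
    MP.sum _ fun k _ => (FC.fa h hF k e).sq hO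
  have m2 : MP fun z => ∑ k, ∑ i, SP.be P U s e k z i ^ 2 :=
    MP.sum _ fun k _ => (FC.be h hF e k).sq hO
  have m3 : MP fun z => ∑ k, ∑ i, P.r' (s z i) ^ 2
      * SP.xx U ((AA U s k).mulVec e) z i * SP.col U (Fa U s k) e z i :=
    MP.sum _ fun k _ => FC.pdot h hF cS (FC.xx _) (FC.fa h hF k e)
  have m4 : MP fun z => ∑ k, ∑ i, SP.xx U ((AA U s k).mulVec e) z i ^ 2 :=
    MP.sum _ fun k _ => (FC.xx (U := U) _).sq hO
  have m5 : MP fun z => ∑ k, ∑ i, SP.xx U ((AA U s k).mulVec e) z i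
      * SP.col U (Fa U s k) e z i :=
    MP.sum _ fun k _ => (FC.xx (U := U) _).dot hO (FC.fa h hF k e)
  have m6 : MP fun z => ∑ k, ∑ i, P.r' (s z i) ^ 2 * SP.xx U ((AA U s k).mulVec e) z i ^ 2 :=
    MP.sum _ fun k _ => FC.psq h hF cS (FC.xx _)
  have m7 : MP fun z => ∑ k, ∑ i, SP.kap P.r P.r' U s k e z i ^ 2 :=
    MP.sum _ fun k _ => (FC.kap h hF P.hr (r'_cont P) k e).sq hO
  have key : (fun z => ∑ k, ∑ i, FormA0 P ν b₁ m (s z i) (SP.col U (Fa U s k) e z i)
        (SP.xx U ((AA U s k).mulVec e) z i) (SP.kap P.r P.r' U s k e z i))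
      = (((m.c - m.L6 - m.c * ν) • tm m1 + (-m.c) • tm m2 + (m.B4 - m.c) • tm m3
        + m.L5 • tm m4 + m.L7 • tm m5 + m.B4 • tm m6 + (m.c * b₁) • tm m7 : MPS n) : E n → ℝ) := by
    funext z
    simp only [Submodule.coe_add, Submodule.coe_smul, Pi.add_apply, Pi.smul_apply, smul_eq_mul,
      tm_apply, Finset.mul_sum, ← Finset.sum_add_distrib]
    refine Finset.sum_congr rfl fun k _ => Finset.sum_congr rfl fun i _ => ?_
    unfold FormA0 SP.be
    ring
  have h2 : Ex Q (fun z => ∑ k, ∑ i, FormA0 P ν b₁ m (s z i) (SP.col U (Fa U s k) e z i)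
        (SP.xx U ((AA U s k).mulVec e) z i) (SP.kap P.r P.r' U s k e z i))
      = ExL n ((m.c - m.L6 - m.c * ν) • tm m1 + (-m.c) • tm m2 + (m.B4 - m.c) • tm m3
        + m.L5 • tm m4 + m.L7 • tm m5 + m.B4 • tm m6 + (m.c * b₁) • tm m7) :=
    congrArg (Ex Q) key
  rw [h2]
  simp only [map_add, map_smul, smul_eq_mul, ExL_tm]

/-- kernels are linear in `kA` -/
lemma kA_ker {N : ℕ} {w : Fin N → ℝ → ℝ → ℝ} {m : Mult0 N}
    (hk : ∀ x y, m.c * SP151.ck P x y - m.Mt * (dd (th P) (th1 P) x y - th1 P x)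
      - m.Mr * (dd P.r P.r' x y - P.r' x) - m.B4 * (P.r' y ^ 2 - P.r' x ^ 2)
      = ∑ i, m.γ i x * w i x y) (e : Fin n → ℝ) (z : E n) (i : Fin n) :
    ∑ j, m.γ j (s z i) * SP151.kA (w j) U s e z i
      = m.c * SP151.kA (ck P) U s e z i
        - m.Mt * SP151.kA (fun x y => dd (th P) (th1 P) x y - th1 P x) U s e z i
        - m.Mr * SP151.kA (fun x y => dd P.r P.r' x y - P.r' x) U s e z i
        - m.B4 * SP151.kA (fun x y => P.r' y ^ 2 - P.r' x ^ 2) U s e z i := by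
  have h1 : ∀ w : ℝ → ℝ → ℝ, SP151.kA w U s e z i = ∑ k, ∑ l, w (s z i) (s z l)
      * (SP.uu U s k z i l * SP.xx U ((AA U s k).mulVec e) z l) := fun w => by
    unfold SP151.kA SP151.kk
    exact Finset.sum_congr rfl fun k _ => Finset.sum_congr rfl fun l _ => by ring
  simp only [h1, Finset.mul_sum, ← Finset.sum_sub_distrib]
  rw [Finset.sum_comm]
  refine Finset.sum_congr rfl fun k _ => ?_
  rw [Finset.sum_comm]
  refine Finset.sum_congr rfl fun l _ => ?_
  have h2 := hk (s z i) (s z l)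
  calc ∑ j, m.γ j (s z i) * (w j (s z i) (s z l)
        * (SP.uu U s k z i l * SP.xx U ((AA U s k).mulVec e) z l))
      = (∑ j, m.γ j (s z i) * w j (s z i) (s z l))
        * (SP.uu U s k z i l * SP.xx U ((AA U s k).mulVec e) z l) := by
        rw [Finset.sum_mul]
        exact Finset.sum_congr rfl fun j _ => by ring
    _ = _ := by rw [← h2]; ring

/-- the part in `(x, y, ζ, κ)` -/
theorem exB (h : BP φ V a b M κ) (hF : Fr P φ U s) {N : ℕ} (q ν ρ : ℝ)
    {w : Fin N → ℝ → ℝ → ℝ} (bw : Fin N → ℝ)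
    (hw : ∀ m, Continuous fun p : ℝ × ℝ => w m p.1 p.2) {m : Mult0 N}
    (hk : ∀ x y, m.c * SP151.ck P x y - m.Mt * (dd (th P) (th1 P) x y - th1 P x)
      - m.Mr * (dd P.r P.r' x y - P.r' x) - m.B4 * (P.r' y ^ 2 - P.r' x ^ 2)
      = ∑ i, m.γ i x * w i x y)
    (e : Fin n → ℝ) :
    Ex Q (fun z => ∑ i, FormB0 P q ν ρ bw m (s z i) (SP.xx U e z i) (SP.col U (FF U s) e z i)
        (SP.col U (ZZ U s) e z i) (fun j => SP151.kA (w j) U s e z i))
      = (-m.c - m.L2 + 2 * m.L6 - m.c * ρ) * Ex Q (fun z => ∑ i, SP.col U (FF U s) e z i ^ 2)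
        + m.c * (q - 1) * Ex Q (fun z => ∑ i,
          (P.r' (s z i) + P.r (s z i) * P.r'' (s z i)) * SP.xx U e z i ^ 2)
        + m.c * Ex Q (fun z => ∑ i, (P.r' (s z i) + P.r (s z i) * P.r'' (s z i)) * SP.xx U e z i
          * SP.col U (ZZ U s) e z i)
        + (m.c - m.Mt) * Ex Q (fun z => ∑ i, (P.r (s z i) + P.r (s z i) * P.r' (s z i))
          * SP.xx U e z i * SP.col U (FF U s) e z i)
        + (m.c - m.c * Real.log m.c - m.L5 * q - m.c * ρ * min 1 ((q - 1) ^ 2))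
          * Ex Q (fun z => ∑ i, SP.xx U e z i ^ 2)
        + (-1) * Ex Q (fun z => ∑ i, P.L (s z i) ^ 2 * SP.xx U e z i ^ 2)
        + m.L1 * Ex Q (fun z => ∑ i, SP.xx U e z i * SP.col U (FF U s) e z i)
        + (m.L2 - m.T0) * Ex Q (fun z => ∑ i, s z i * SP.xx U e z i * SP.col U (FF U s) e z i)
        + m.L3 * Ex Q (fun z => ∑ i, SP.xx U e z i * SP.col U (ZZ U s) e z i)
        + m.L4 * Ex Q (fun z => ∑ i, s z i * SP.xx U e z i ^ 2)
        + m.T0 * Ex Q (fun z => ∑ i, s z i * s z i * SP.xx U e z i ^ 2)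
        + (-m.T0) * Ex Q (fun z => ∑ i, 1 * SP.xx U e z i
          * (q * SP.xx U e z i + SP.col U (ZZ U s) e z i))
        + m.Mt * Ex Q (fun z => ∑ i, th P (s z i) * s z i * SP.xx U e z i ^ 2)
        + (-m.Mt) * Ex Q (fun z => ∑ i, th1 P (s z i) * SP.xx U e z i
          * (q * SP.xx U e z i + SP.col U (ZZ U s) e z i))
        + m.Mr * Ex Q (fun z => ∑ i, P.r (s z i) * s z i * SP.xx U e z i ^ 2)
        + (-m.Mr) * Ex Q (fun z => ∑ i, P.r (s z i) * SP.xx U e z i * SP.col U (FF U s) e z i)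
        + (-m.Mr) * Ex Q (fun z => ∑ i, P.r' (s z i) * SP.xx U e z i
          * (q * SP.xx U e z i + SP.col U (ZZ U s) e z i))
        + (-m.B4) * Ex Q (fun z => ∑ i, P.r' (s z i) ^ 2 * SP.xx U e z i
          * (q * SP.xx U e z i + SP.col U (ZZ U s) e z i))
        + m.c * Ex Q (fun z => ∑ i, SP.xx U e z i * SP151.kA (ck P) U s e z i)
        + (-m.Mt) * Ex Q (fun z => ∑ i, SP.xx U e z i
          * SP151.kA (fun x y => dd (th P) (th1 P) x y - th1 P x) U s e z i)
        + (-m.Mr) * Ex Q (fun z => ∑ i, SP.xx U e z i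
          * SP151.kA (fun x y => dd P.r P.r' x y - P.r' x) U s e z i)
        + (-m.B4) * Ex Q (fun z => ∑ i, SP.xx U e z i
          * SP151.kA (fun x y => P.r' y ^ 2 - P.r' x ^ 2) U s e z i)
        + m.c * ν * q⁻¹ * Ex Q (fun z => ∑ i, SP.col U (ZZ U s) e z i ^ 2)
        + m.c * ∑ j, bw j * (q⁻¹ * Ex Q (fun z => ∑ i, SP151.kA (w j) U s e z i ^ 2)) := by
  have hO := hF.orth
  have cr := r_cont P
  have cr' := r'_cont P
  have cr'' := P.r''_cont
  have cL : Continuous P.L := continuous_iff_continuousAt.2 fun x => (P.hL x).continuousAt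
  have x := FC.xx (U := U) e
  have y := FC.y h hF e
  have ze := FC.ze h hF e
  have cw : Continuous fun x => P.r' x + P.r x * P.r'' x := by fun_prop
  have cth : Continuous fun x => P.r x + P.r x * P.r' x := by fun_prop
  have cth0 := th_cont P
  have cth1 := th1_cont P
  have xz : FC U fun z i => q * SP.xx U e z i + SP.col U (ZZ U s) e z i := (x.smul q).add ze
  have hd1 : Continuous fun p : ℝ × ℝ => dd (th P) (th1 P) p.1 p.2 - th1 P p.1 :=
    (dd_continuous (th_hasDeriv P) cth1).sub (cth1.comp continuous_fst)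
  have hd2 : Continuous fun p : ℝ × ℝ => dd P.r P.r' p.1 p.2 - P.r' p.1 :=
    (dd_continuous P.hr cr').sub (cr'.comp continuous_fst)
  have hd3 : Continuous fun p : ℝ × ℝ => P.r' p.2 ^ 2 - P.r' p.1 ^ 2 := by fun_prop
  have m1 := y.sq hO
  have m2 := FC.psq h hF cw x
  have m3 := FC.pdot h hF cw x ze
  have m4 := FC.pdot h hF cth x y
  have m5 := x.sq hO
  have m6 := FC.psq h hF (p := fun g => P.L g ^ 2) (cL.pow 2) x
  have m7 := x.dot hO y
  have m8 := FC.pdot h hF continuous_id x y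
  have m9 := x.dot hO ze
  have m10 := FC.psq h hF continuous_id x
  have m11 := FC.psq h hF (p := fun g => g * g) (by fun_prop) x
  have m12 := FC.pdot h hF (p := fun _ => 1) (by fun_prop) x xz
  have m13 := FC.psq h hF (p := fun g => th P g * g) (by fun_prop) x
  have m14 := FC.pdot h hF cth1 x xz
  have m15 := FC.psq h hF (p := fun g => P.r g * g) (by fun_prop) x
  have m16 := FC.pdot h hF cr x y
  have m17 := FC.pdot h hF cr' x xz
  have m18 := FC.pdot h hF (p := fun g => P.r' g ^ 2) (cr'.pow 2) x xz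
  have m19 := x.dot hO (FC.kA h hF (w := ck P) (comm_continuous P) e)
  have m20 := x.dot hO (FC.kA h hF (w := fun x y => dd (th P) (th1 P) x y - th1 P x) hd1 e)
  have m21 := x.dot hO (FC.kA h hF (w := fun x y => dd P.r P.r' x y - P.r' x) hd2 e)
  have m22 := x.dot hO (FC.kA h hF (w := fun x y => P.r' y ^ 2 - P.r' x ^ 2) hd3 e)
  have m23 := ze.sq hO
  have m24 : ∀ j, MP fun z => ∑ i, SP151.kA (w j) U s e z i ^ 2 := fun j =>
    (FC.kA h hF (hw j) e).sq hO
  have key : (fun z => ∑ i, FormB0 P q ν ρ bw m (s z i) (SP.xx U e z i) (SP.col U (FF U s) e z i)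
        (SP.col U (ZZ U s) e z i) (fun j => SP151.kA (w j) U s e z i))
      = (((-m.c - m.L2 + 2 * m.L6 - m.c * ρ) • tm m1 + (m.c * (q - 1)) • tm m2 + m.c • tm m3
        + (m.c - m.Mt) • tm m4
        + (m.c - m.c * Real.log m.c - m.L5 * q - m.c * ρ * min 1 ((q - 1) ^ 2)) • tm m5
        + (-1 : ℝ) • tm m6 + m.L1 • tm m7 + (m.L2 - m.T0) • tm m8 + m.L3 • tm m9
        + m.L4 • tm m10 + m.T0 • tm m11 + (-m.T0) • tm m12 + m.Mt • tm m13 + (-m.Mt) • tm m14
        + m.Mr • tm m15 + (-m.Mr) • tm m16 + (-m.Mr) • tm m17 + (-m.B4) • tm m18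
        + m.c • tm m19 + (-m.Mt) • tm m20 + (-m.Mr) • tm m21 + (-m.B4) • tm m22
        + (m.c * ν * q⁻¹) • tm m23 + m.c • ∑ j, (bw j * q⁻¹) • tm (m24 j) : MPS n)
        : E n → ℝ) := by
    funext z
    simp only [Submodule.coe_add, Submodule.coe_smul, Submodule.coe_sum, Pi.add_apply,
      Pi.smul_apply, Finset.sum_apply, smul_eq_mul, tm_apply]
    rw [show (∑ j, bw j * q⁻¹ * ∑ i, SP151.kA (w j) U s e z i ^ 2)
      = ∑ i, ∑ j, bw j * q⁻¹ * SP151.kA (w j) U s e z i ^ 2 by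
        simp only [Finset.mul_sum]; rw [Finset.sum_comm]]
    simp only [Finset.mul_sum, ← Finset.sum_add_distrib]
    refine Finset.sum_congr rfl fun i _ => ?_
    have h3 := kA_ker (U := U) (s := s) hk e z i
    have h4 : ∑ j, m.c * bw j * q⁻¹ * SP151.kA (w j) U s e z i ^ 2
        = ∑ j, m.c * (bw j * q⁻¹ * SP151.kA (w j) U s e z i ^ 2) :=
      Finset.sum_congr rfl fun j _ => by ring
    unfold FormB0
    rw [h3, h4]
    simp only [id]
    unfold w0 th
    ring
  have h2 := congrArg (Ex Q) key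
  refine h2.trans ?_
  refine (show _ = ExL n _ from rfl).trans ?_
  simp only [map_add, map_smul, map_sum, smul_eq_mul, ExL_tm, id]
  congr 1
  congr 1
  exact Finset.sum_congr rfl fun j _ => by ring

/-- **mode 0**: the pointwise forms give the column inequality -/
theorem mode0_of (hD : Dat P φ V a b M κ U s) (h0 : ∀ i j, Ex Q (fun z => GG U s z i j) = 0)
    {e : Fin n → ℝ} {q : ℝ} (hq : (KK U s).mulVec e = q • e) (he : ∑ i, e i ^ 2 = 1)
    {N : ℕ} {ν b₁ ρ : ℝ} {w : Fin N → ℝ → ℝ → ℝ} {bw : Fin N → ℝ} {m : Mult0 N}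
    (hw : ∀ m, Continuous fun p : ℝ × ℝ => w m p.1 p.2) (hm : PW0 P q ν b₁ ρ w bw m) :
    Mode0 P ν b₁ w bw ρ U s q e := by
  have h := hD.bp
  have hF := hD.fr
  have hA := exA (n := n) h hF ν b₁ m e
  have hB := exB (n := n) h hF q ν ρ bw hw hm.ker e
  have pA : 0 ≤ Ex Q (fun z => ∑ k, ∑ i, FormA0 P ν b₁ m (s z i) (SP.col U (Fa U s k) e z i)
        (SP.xx U ((AA U s k).mulVec e) z i) (SP.kap P.r P.r' U s k e z i)) :=
    Ex_nonneg' fun z => Finset.sum_nonneg fun k _ => Finset.sum_nonneg fun i _ => hm.formA _ _ _ _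
  have pB : 0 ≤ Ex Q (fun z => ∑ i, FormB0 P q ν ρ bw m (s z i) (SP.xx U e z i)
        (SP.col U (FF U s) e z i) (SP.col U (ZZ U s) e z i)
        (fun j => SP151.kA (w j) U s e z i)) :=
    Ex_nonneg' fun z => Finset.sum_nonneg fun i _ => hm.formB _ _ _ _ _
  obtain ⟨l1, l2, l3, l4, l5, l6⟩ := SP.H515.stmtLin P n φ V a b M κ U s hD h0 e q hq
  have g1 := (SP649.stmtGap P n φ V a b M κ U s hD h0 e).1
  have g2 := mul_nonneg hm.L6_nonneg (sub_nonneg.2 g1)
  have ht := H545.stmtST P n φ V a b M κ U s hD (th P) (th1 P) (th_hasDeriv P) (th1_cont P) e q hq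
  have hr := H545.stmtST P n φ V a b M κ U s hD P.r P.r' P.hr (r'_cont P) e q hq
  have hi := H545.stmtST P n φ V a b M κ U s hD (fun x => x) (fun _ => 1) (fun x => hasDerivAt_id x)
    continuous_const e q hq
  refine ⟨m.c, hm.c_pos, ?_⟩
  -- commutators
  have hcm : ∀ p p' : ℝ → ℝ, Ex Q (fun z => ∑ k, ∑ i, SP.xx U e z i
      * SP.kap p p' U s k ((AA U s k).mulVec e) z i)
      = Ex Q (fun z => ∑ i, SP.xx U e z i
        * SP151.kA (fun x y => dd p p' x y - p' x) U s e z i) := fun p p' => by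
    congr 1
    funext z
    rw [Finset.sum_comm]
    refine Finset.sum_congr rfl fun i _ => ?_
    unfold SP151.kA
    rw [Finset.mul_sum]
    exact Finset.sum_congr rfl fun k _ => rfl
  rw [hcm] at ht hr hi
  have hid : Ex Q (fun z => ∑ i, SP.xx U e z i
      * SP151.kA (fun x y => dd (fun x => x) (fun _ => 1) x y - 1) U s e z i) = 0 := by
    have e1 : ∀ x y : ℝ, dd (fun x => x) (fun _ => 1) x y - 1 = 0 := fun x y => by
      unfold dd
      split_ifs with hxy
      · ring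
      · rw [div_self (sub_ne_zero.2 hxy)]
        ring
    have e2 : (fun z : E n => ∑ i, SP.xx U e z i
      * SP151.kA (fun x y => dd (fun x => x) (fun _ => 1) x y - 1) U s e z i) = fun _ => 0 := by
      funext z
      refine Finset.sum_eq_zero fun i _ => ?_
      unfold SP151.kA SP151.kk
      simp only [e1, zero_mul, Finset.sum_const_zero, mul_zero]
    rw [e2, Ex_const']
  rw [hid, add_zero] at hi
  -- norm of `e`
  have hn : Ex Q (fun z => ∑ i, SP.xx U e z i ^ 2) = 1 := by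
    have e1 : (fun z : E n => ∑ i, SP.xx U e z i ^ 2) = fun _ => 1 := by
      funext z
      exact (SP427.frame_norm (hF.orth z) e).trans he
    rw [e1, Ex_const']
  have hal : Ex Q (fun z => ∑ k, ∑ i, SP.xx U ((AA U s k).mulVec e) z i ^ 2) = q := by
    have e1 : (fun z : E n => ∑ k, ∑ i, SP.xx U ((AA U s k).mulVec e) z i ^ 2) = fun _ => q := by
      funext z
      rw [l6 z, he, mul_one]
    rw [e1, Ex_const']
  -- C4 with `r'²`
  have hc4 : Ex Q (fun z => ∑ k, ∑ i, P.r' (s z i) ^ 2 * SP.xx U ((AA U s k).mulVec e) z i ^ 2)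
      = Ex Q (fun z => ∑ i, P.r' (s z i) ^ 2 * SP.xx U e z i
          * (q * SP.xx U e z i + SP.col U (ZZ U s) e z i))
        - Ex Q (fun z => ∑ k, ∑ i, P.r' (s z i) ^ 2
            * SP.xx U ((AA U s k).mulVec e) z i * SP.col U (Fa U s k) e z i)
        + Ex Q (fun z => ∑ i, SP.xx U e z i
          * SP151.kA (fun x y => P.r' y ^ 2 - P.r' x ^ 2) U s e z i) := by
    have cr' := r'_cont P
    have x := FC.xx (U := U) e
    have xz : FC U fun z i => q * SP.xx U e z i + SP.col U (ZZ U s) e z i :=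
      (x.smul q).add (FC.ze h hF e)
    have n1 := FC.pdot h hF (p := fun g => P.r' g ^ 2) (cr'.pow 2) x xz
    have n2 : MP fun z => ∑ k, ∑ i, P.r' (s z i) ^ 2
        * SP.xx U ((AA U s k).mulVec e) z i * SP.col U (Fa U s k) e z i :=
      MP.sum _ fun k _ => FC.pdot h hF (p := fun g => P.r' g ^ 2) (cr'.pow 2) (FC.xx _)
        (FC.fa h hF k e)
    have hd3 : Continuous fun p : ℝ × ℝ => P.r' p.2 ^ 2 - P.r' p.1 ^ 2 := by fun_prop
    have n3 := x.dot hF.orth (FC.kA h hF (w := fun x y => P.r' y ^ 2 - P.r' x ^ 2) hd3 e)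
    rw [← Ex_sub' n1 n2, ← Ex_add' (n1.sub n2) n3]
    congr 1
    funext z
    rw [SP.H888.stmtC4 n U s hF.orth (fun g => P.r' g ^ 2) e q (AA_symm U s)
      (fun k z => pdM_GG_symm U s k z) hq z]
    congr 1
    rw [Finset.sum_comm]
    refine Finset.sum_congr rfl fun i _ => ?_
    unfold SP151.kA SP151.kk
    rw [Finset.mul_sum]
  -- assembly
  rw [hA] at pA
  rw [hB] at pB
  rw [hal, l5] at pA
  rw [hn, l1, l2, l3, l4] at pB
  rw [l4] at hi
  have k1 := congrArg (fun t => m.Mt * t) ht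
  have k2 := congrArg (fun t => m.Mr * t) hr
  have k3 := congrArg (fun t => m.T0 * t) hi
  have k4 := congrArg (fun t => m.B4 * t) hc4
  have ethxy : Ex Q (fun z => ∑ i, th P (s z i) * SP.xx U e z i * SP.col U (FF U s) e z i)
      = Ex Q (fun z => ∑ i, (P.r (s z i) + P.r (s z i) * P.r' (s z i)) * SP.xx U e z i
        * SP.col U (FF U s) e z i) := rfl
  rw [ethxy] at k1
  unfold SP151.cT0 SP151.budg SP151.nDF SP151.nF SP151.nZ
  linarith

end Vale.Agent.P254.SP127
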