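import Vale.Agent.P254.SP.H151.Glue
import Vale.Agent.P254.SP.H127.PW0

/-! P254, block SP (helper127): the glue with mode 0 plugged in. -/

set_option autoImplicit false

open MeasureTheory Matrix

namespace Vale.Agent.P254.SP127

open Vale.Agent.P227.M Vale.Agent.P254.S Vale.Agent.P254.SP

theorem stab_glue0 (P : F1)
    (h2 : ∀ x y, (dd P.r' P.r'' x y - P.r'' x) ^ 2 ≤ 3 / 400 * (wσ P x y - 1))
    (h4 : ∀ x y, SP151.ktot P (43 / 100) (1 / 2) x y ^ 2 ≤ 1 / 20 * P.r' x * (wσ P x y - 1))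
    (hr : ∀ q : ℝ, 0 ≤ q → SP151.PWm1 P q ∨ (0 < q ∧ SP151.PWm0 P q)) :
    E72.StmtStab P :=
  SP151.stab_glue P h2 h4 (fun _ _ _ _ _ _ _ _ _ hD h0 _ _ hq he _ _ hm =>
    mode0_of hD h0 hq he (SP151.cont_wfam P) hm) hr

end Vale.Agent.P254.SP127
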