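import Vale.Agent.P254.SP.H127.Field

/-!
# P254, block SP: measurability and boundedness of two-variable Schur fields

`sch w U s X = U (w(s_i,s_j) (Uᵀ X U)_ij) Uᵀ`.  If `G z = U z diag(s z) (U z)ᵀ` has bounded measurable
entries, `w` is continuous and `D` is a bounded measurable matrix field then `z ↦ sch w (U z) (s z) (D z)`
is bounded and measurable, although `U`, `s` need not be measurable (Stone-Weierstrass on a square).
-/

open MeasureTheory Matrix Finset Filter Topology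

noncomputable section

namespace Vale.Agent.P254.SP127

open Vale.Agent.P227.M Vale.Agent.P254.S Vale.Agent.P254.SP Vale.Agent.P254.SP620
open Vale.Agent.P254.S130 (MBM BM MBL BL gQ)

variable {n : ℕ}

/-- two-variable Schur multiplier in the frame `U` -/
def sch (w : ℝ → ℝ → ℝ) (U : Matrix (Fin n) (Fin n) ℝ) (s : Fin n → ℝ)
    (X : Matrix (Fin n) (Fin n) ℝ) : Matrix (Fin n) (Fin n) ℝ :=
  U * (of fun i j => w (s i) (s j) * (Uᵀ * X * U) i j) * Uᵀ

lemma sch_frame {U : Matrix (Fin n) (Fin n) ℝ} (hU : Uᵀ * U = 1) (w : ℝ → ℝ → ℝ) (s : Fin n → ℝ)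
    (X : Matrix (Fin n) (Fin n) ℝ) (i j : Fin n) :
    (Uᵀ * sch w U s X * U) i j = w (s i) (s j) * (Uᵀ * X * U) i j := by
  unfold sch
  set Y : Matrix (Fin n) (Fin n) ℝ := of fun i j => w (s i) (s j) * (Uᵀ * X * U) i j with hY
  have h1 : Uᵀ * (U * Y * Uᵀ) * U = Y := by
    calc Uᵀ * (U * Y * Uᵀ) * U = (Uᵀ * U) * Y * (Uᵀ * U) := by simp only [Matrix.mul_assoc]
      _ = _ := by rw [hU, Matrix.one_mul, Matrix.mul_one]
  rw [h1, hY, of_apply]

lemma sch_frame' {U : Matrix (Fin n) (Fin n) ℝ} (hU : Uᵀ * U = 1) (w : ℝ → ℝ → ℝ) (s : Fin n → ℝ)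
    (X : Matrix (Fin n) (Fin n) ℝ) :
    Uᵀ * sch w U s X * U = of fun i j => w (s i) (s j) * (Uᵀ * X * U) i j := by
  ext i j
  rw [sch_frame hU, of_apply]

lemma frame_inj {U : Matrix (Fin n) (Fin n) ℝ} (hU : Uᵀ * U = 1) {X Y : Matrix (Fin n) (Fin n) ℝ}
    (h : Uᵀ * X * U = Uᵀ * Y * U) : X = Y := by
  have hU' : U * Uᵀ = 1 := mul_eq_one_comm.1 hU
  have e : ∀ Z : Matrix (Fin n) (Fin n) ℝ, U * (Uᵀ * Z * U) * Uᵀ = Z := by
    intro Z
    calc U * (Uᵀ * Z * U) * Uᵀ = (U * Uᵀ) * Z * (U * Uᵀ) := by simp only [Matrix.mul_assoc]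
      _ = _ := by rw [hU', Matrix.one_mul, Matrix.mul_one]
  rw [← e X, ← e Y, h]

section sw

variable {μ : Measure (E n)} {c C : ℝ} {G U : E n → Matrix (Fin n) (Fin n) ℝ} {s : E n → Fin n → ℝ}

/-- the Schur field of a continuous function on the square -/
def TF (hm : ∀ z i, s z i ∈ Set.Icc c C) (U : E n → Matrix (Fin n) (Fin n) ℝ)
    (f : C(Set.Icc c C × Set.Icc c C, ℝ)) (D : E n → Matrix (Fin n) (Fin n) ℝ) (z : E n) :
    Matrix (Fin n) (Fin n) ℝ :=
  U z * (of fun i j => f (⟨s z i, hm z i⟩, ⟨s z j, hm z j⟩) * ((U z)ᵀ * D z * U z) i j) * (U z)ᵀ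

lemma TF_frame (hU : ∀ z, (U z)ᵀ * U z = 1) (hm : ∀ z i, s z i ∈ Set.Icc c C)
    (f : C(Set.Icc c C × Set.Icc c C, ℝ)) (D : E n → Matrix (Fin n) (Fin n) ℝ) (z : E n) :
    (U z)ᵀ * TF hm U f D z * U z
      = of fun i j => f (⟨s z i, hm z i⟩, ⟨s z j, hm z j⟩) * ((U z)ᵀ * D z * U z) i j := by
  unfold TF
  set Y : Matrix (Fin n) (Fin n) ℝ :=
    of fun i j => f (⟨s z i, hm z i⟩, ⟨s z j, hm z j⟩) * ((U z)ᵀ * D z * U z) i j with hY
  calc (U z)ᵀ * (U z * Y * (U z)ᵀ) * U z = ((U z)ᵀ * U z) * Y * ((U z)ᵀ * U z) := by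
        simp only [Matrix.mul_assoc]
    _ = _ := by rw [hU z, Matrix.one_mul, Matrix.mul_one]

/-- the Schur fields are bounded -/
lemma TF_bdd (hU : ∀ z, (U z)ᵀ * U z = 1) (hm : ∀ z i, s z i ∈ Set.Icc c C)
    (f : C(Set.Icc c C × Set.Icc c C, ℝ)) {D : E n → Matrix (Fin n) (Fin n) ℝ} (hD : MBM μ D)
    (i j : Fin n) : ∃ B, ∀ z, |TF hm U f D z i j| ≤ B := by
  choose B hB using fun i j => (hD i j).2
  set B0 : ℝ := ∑ i, ∑ j, |B i j| with hB0
  have hB1 : ∀ z i j, |D z i j| ≤ B0 := by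
    intro z i j
    refine ((hB i j z).trans (le_abs_self _)).trans ?_
    calc |B i j| ≤ ∑ j, |B i j| :=
          Finset.single_le_sum (f := fun j => |B i j|) (fun _ _ => abs_nonneg _) (Finset.mem_univ j)
      _ ≤ _ := Finset.single_le_sum (f := fun i => ∑ j, |B i j|)
          (fun _ _ => Finset.sum_nonneg fun _ _ => abs_nonneg _) (Finset.mem_univ i)
  have hB00 : 0 ≤ B0 := Finset.sum_nonneg fun _ _ => Finset.sum_nonneg fun _ _ => abs_nonneg _
  refine ⟨‖f‖ * (Fintype.card (Fin n) * B0), fun z => ?_⟩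
  have h1 : fr (D z) ≤ (Fintype.card (Fin n) * B0) ^ 2 := fr_le (hB1 z)
  have h2 : fr (TF hm U f D z) ≤ ‖f‖ ^ 2 * fr (D z) := by
    rw [← fr_orth (hU z) (hU z) (TF hm U f D z), ← fr_orth (hU z) (hU z) (D z), TF_frame hU, fr, fr,
      Finset.mul_sum]
    refine Finset.sum_le_sum fun i _ => ?_
    rw [Finset.mul_sum]
    refine Finset.sum_le_sum fun j _ => ?_
    rw [of_apply, mul_pow]
    refine mul_le_mul_of_nonneg_right ?_ (sq_nonneg _)
    rw [← sq_abs]
    exact pow_le_pow_left₀ (abs_nonneg _) (f.norm_coe_le_norm _) 2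
  refine entry_le (by positivity) ?_ i j
  calc _ ≤ ‖f‖ ^ 2 * fr (D z) := h2
    _ ≤ ‖f‖ ^ 2 * (Fintype.card (Fin n) * B0) ^ 2 := mul_le_mul_of_nonneg_left h1 (sq_nonneg _)
    _ = _ := by ring

/-- the subalgebra of the functions with measurable Schur fields -/
def subA (hU : ∀ z, (U z)ᵀ * U z = 1) (hm : ∀ z i, s z i ∈ Set.Icc c C) (μ : Measure (E n)) :
    Subalgebra ℝ C(Set.Icc c C × Set.Icc c C, ℝ) where
  carrier := {f | ∀ D, MBM μ D → MBM μ (TF hm U f D)}
  mul_mem' := by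
    intro f g hf hg D hD
    have h := hf _ (hg D hD)
    have e : TF hm U (f * g) D = TF hm U f (TF hm U g D) := by
      funext z
      refine frame_inj (hU z) ?_
      rw [TF_frame hU, TF_frame hU, TF_frame hU]
      ext i j
      simp only [of_apply, ContinuousMap.mul_apply]
      ring
    rw [e]
    exact h
  add_mem' := by
    intro f g hf hg D hD
    have e : TF hm U (f + g) D = fun z => TF hm U f D z + TF hm U g D z := by
      funext z
      refine frame_inj (hU z) ?_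
      rw [Matrix.mul_add, Matrix.add_mul, TF_frame hU, TF_frame hU, TF_frame hU]
      ext i j
      simp only [of_apply, ContinuousMap.add_apply, Matrix.add_apply]
      ring
    rw [e]
    exact (hf D hD).add (hg D hD)
  algebraMap_mem' := by
    intro r D hD
    have e : TF hm U (algebraMap ℝ _ r) D = fun z => r • D z := by
      funext z
      refine frame_inj (hU z) ?_
      rw [Matrix.mul_smul, Matrix.smul_mul, TF_frame hU]
      ext i j
      simp only [of_apply, Matrix.smul_apply, smul_eq_mul]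
      rfl
    rw [e]
    exact hD.smul r

/-- the first coordinate -/
def cfst (c C : ℝ) : C(Set.Icc c C × Set.Icc c C, ℝ) := ⟨fun p => (p.1 : ℝ), by fun_prop⟩

/-- the second coordinate -/
def csnd (c C : ℝ) : C(Set.Icc c C × Set.Icc c C, ℝ) := ⟨fun p => (p.2 : ℝ), by fun_prop⟩

lemma fst_mem (hU : ∀ z, (U z)ᵀ * U z = 1) (hm : ∀ z i, s z i ∈ Set.Icc c C)
    (hG : MBM μ G) (hGe : ∀ z, G z = U z * diagonal (s z) * (U z)ᵀ) :
    cfst c C ∈ subA hU hm μ := by
  intro D hD
  have e : TF hm U (cfst c C) D = fun z => G z * D z := by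
    funext z
    refine frame_inj (hU z) ?_
    rw [TF_frame hU, hGe z]
    have h1 : (U z)ᵀ * (U z * diagonal (s z) * (U z)ᵀ * D z) * U z
        = diagonal (s z) * ((U z)ᵀ * D z * U z) := by
      calc (U z)ᵀ * (U z * diagonal (s z) * (U z)ᵀ * D z) * U z
          = ((U z)ᵀ * U z) * diagonal (s z) * ((U z)ᵀ * D z * U z) := by
            simp only [Matrix.mul_assoc]
        _ = _ := by rw [hU z, Matrix.one_mul]
    rw [h1]
    ext i j
    rw [of_apply, diagonal_mul]
    rfl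
  rw [e]
  exact hG.mul hD

lemma snd_mem (hU : ∀ z, (U z)ᵀ * U z = 1) (hm : ∀ z i, s z i ∈ Set.Icc c C)
    (hG : MBM μ G) (hGe : ∀ z, G z = U z * diagonal (s z) * (U z)ᵀ) :
    csnd c C ∈ subA hU hm μ := by
  intro D hD
  have e : TF hm U (csnd c C) D = fun z => D z * G z := by
    funext z
    refine frame_inj (hU z) ?_
    rw [TF_frame hU, hGe z]
    have h1 : (U z)ᵀ * (D z * (U z * diagonal (s z) * (U z)ᵀ)) * U z
        = ((U z)ᵀ * D z * U z) * diagonal (s z) := by
      calc (U z)ᵀ * (D z * (U z * diagonal (s z) * (U z)ᵀ)) * U z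
          = ((U z)ᵀ * D z * U z) * diagonal (s z) * ((U z)ᵀ * U z) := by
            simp only [Matrix.mul_assoc]
        _ = _ := by rw [hU z, Matrix.mul_one]
    rw [h1]
    ext i j
    rw [of_apply, mul_diagonal, mul_comm]
    rfl
  rw [e]
  exact hD.mul hG

lemma subA_sep (hU : ∀ z, (U z)ᵀ * U z = 1) (hm : ∀ z i, s z i ∈ Set.Icc c C)
    (hG : MBM μ G) (hGe : ∀ z, G z = U z * diagonal (s z) * (U z)ᵀ) :
    (subA hU hm μ).SeparatesPoints := by
  intro x y hxy
  by_cases h : (x.1 : ℝ) = y.1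
  · refine ⟨csnd c C, ⟨_, snd_mem hU hm hG hGe, rfl⟩, fun h2 => hxy ?_⟩
    exact Prod.ext (Subtype.ext h) (Subtype.ext h2)
  · exact ⟨cfst c C, ⟨_, fst_mem hU hm hG hGe, rfl⟩, h⟩

/-- every continuous function on the square has measurable Schur fields -/
theorem TF_mbm (hU : ∀ z, (U z)ᵀ * U z = 1) (hm : ∀ z i, s z i ∈ Set.Icc c C)
    (hG : MBM μ G) (hGe : ∀ z, G z = U z * diagonal (s z) * (U z)ᵀ)
    (f : C(Set.Icc c C × Set.Icc c C, ℝ)) {D : E n → Matrix (Fin n) (Fin n) ℝ} (hD : MBM μ D) :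
    MBM μ (TF hm U f D) := by
  intro i j
  refine ⟨?_, TF_bdd hU hm f hD i j⟩
  have h1 := ContinuousMap.subalgebra_topologicalClosure_eq_top_of_separatesPoints
    (subA hU hm μ) (subA_sep hU hm hG hGe)
  have h2 : f ∈ (subA hU hm μ).topologicalClosure := by
    rw [h1]
    exact Algebra.mem_top
  have h3 : f ∈ closure ((subA hU hm μ : Subalgebra ℝ C(Set.Icc c C × Set.Icc c C, ℝ)) :
      Set C(Set.Icc c C × Set.Icc c C, ℝ)) := h2
  obtain ⟨F, hF, hlim⟩ := mem_closure_iff_seq_limit.1 h3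
  refine aestronglyMeasurable_of_tendsto_ae atTop (f := fun k z => TF hm U (F k) D z i j)
    (fun k => (hF k D hD i j).1) (ae_of_all _ fun z => ?_)
  have hc : Continuous fun f : C(Set.Icc c C × Set.Icc c C, ℝ) => TF hm U f D z i j := by
    unfold TF
    simp only [conj_entry, of_apply]
    refine continuous_finsetSum _ fun k _ => continuous_finsetSum _ fun l _ => ?_
    refine (continuous_const.mul (Continuous.mul ?_ continuous_const)).mul continuous_const
    exact continuous_eval_const _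
  exact (hc.tendsto f).comp hlim

/-- **measurability of the Schur fields** -/
theorem sch_mbm (hU : ∀ z, (U z)ᵀ * U z = 1) (hm : ∀ z i, s z i ∈ Set.Icc c C)
    (hG : MBM μ G) (hGe : ∀ z, G z = U z * diagonal (s z) * (U z)ᵀ)
    {w : ℝ → ℝ → ℝ}
    (hw : ContinuousOn (fun p : ℝ × ℝ => w p.1 p.2) (Set.Icc c C ×ˢ Set.Icc c C))
    {D : E n → Matrix (Fin n) (Fin n) ℝ} (hD : MBM μ D) :
    MBM μ fun z => sch w (U z) (s z) (D z) := by
  have hc : Continuous fun p : Set.Icc c C × Set.Icc c C => w (p.1 : ℝ) (p.2 : ℝ) := by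
    refine hw.comp_continuous (f := fun p : Set.Icc c C × Set.Icc c C => ((p.1 : ℝ), (p.2 : ℝ)))
      (by fun_prop) fun p => ⟨p.1.2, p.2.2⟩
  exact TF_mbm hU hm hG hGe ⟨_, hc⟩ hD

end sw

/-! ### continuity of divided differences -/

lemma dd_integral {f f' : ℝ → ℝ} (hf : ∀ x, HasDerivAt f (f' x) x) (hf' : Continuous f') (x y : ℝ) :
    dd f f' x y = ∫ θ in (0 : ℝ)..1, f' (y + θ * (x - y)) := by
  unfold dd
  split_ifs with h
  · subst h
    simp
  · have h0 : x - y ≠ 0 := sub_ne_zero.2 h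
    have h1 : ∫ θ in (0 : ℝ)..1, f' (y + θ * (x - y)) * (x - y) = f x - f y := by
      have h2 : ∀ θ ∈ Set.uIcc (0 : ℝ) 1, HasDerivAt (fun θ => f (y + θ * (x - y)))
          (f' (y + θ * (x - y)) * (x - y)) θ := by
        intro θ _
        have h3 : HasDerivAt (fun θ : ℝ => y + θ * (x - y)) (x - y) θ := by
          simpa using ((hasDerivAt_id θ).mul_const (x - y)).const_add y
        exact (hf _).comp θ h3
      have h4 := intervalIntegral.integral_eq_sub_of_hasDerivAt h2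
        (Continuous.intervalIntegrable (by fun_prop) _ _)
      rw [h4]
      congr 1
      · congr 1
        ring
      · congr 1
        ring
    rw [intervalIntegral.integral_mul_const] at h1
    rw [div_eq_iff h0, h1]

/-- divided differences of `C¹` functions are continuous -/
theorem dd_continuous {f f' : ℝ → ℝ} (hf : ∀ x, HasDerivAt f (f' x) x) (hf' : Continuous f') :
    Continuous fun p : ℝ × ℝ => dd f f' p.1 p.2 := by
  have e : (fun p : ℝ × ℝ => dd f f' p.1 p.2)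
      = fun p : ℝ × ℝ => ∫ θ in (0 : ℝ)..1, f' (p.2 + θ * (p.1 - p.2)) :=
    funext fun p => dd_integral hf hf' p.1 p.2
  rw [e]
  refine intervalIntegral.continuous_parametric_intervalIntegral_of_continuous' ?_ 0 1
  have h : Continuous fun q : (ℝ × ℝ) × ℝ => q.1.2 + q.2 * (q.1.1 - q.1.2) := by fun_prop
  exact hf'.comp h

/-- the energy weight is continuous -/
theorem wσ_continuous (P : F1) : Continuous fun p : ℝ × ℝ => wσ P p.1 p.2 := by
  unfold wσ
  refine ((dd_continuous P.ht (L_cont P)).pow 2).div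
    (((L_cont P).comp continuous_fst).mul ((L_cont P).comp continuous_snd)) fun p => ?_
  exact (mul_pos (P.L_pos _) (P.L_pos _)).ne'

/-! ### the fields of `(SP_0)` -/

variable {P : F1} {φ V : E n → ℝ} {a b M κ : ℝ}
  {U : E n → Matrix (Fin n) (Fin n) ℝ} {s : E n → Fin n → ℝ}

lemma mbm_pdM {A : E n → Matrix (Fin n) (Fin n) ℝ} (hA : MBL A) (k : Fin n) :
    MBM (gQ n) (pdM k A) := fun i j => S130.bm_pd (hA i j) k

/-- every continuous Schur field of a bounded measurable field is bounded measurable -/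
theorem mbm_sch (h : BP φ V a b M κ) (hF : Fr P φ U s) {w : ℝ → ℝ → ℝ}
    (hw : Continuous fun p : ℝ × ℝ => w p.1 p.2)
    {D : E n → Matrix (Fin n) (Fin n) ℝ} (hD : MBM (gQ n) D) :
    MBM (gQ n) fun z => sch w (U z) (s z) (D z) :=
  sch_mbm (orthT hF) (s_mem h hF) (fun i j => (mbl_GG h hF i j).bm) (fun _ => rfl)
    hw.continuousOn hD

/-- one-variable functions of `G` (continuous `f` suffices) -/
theorem mbm_fc (h : BP φ V a b M κ) (hF : Fr P φ U s) {f : ℝ → ℝ} (hf : Continuous f) :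
    MBM (gQ n) (fc U s f) := by
  have h1 := mbm_sch h hF (w := fun x _ => f x) (by fun_prop) (MBM.one (μ := gQ n))
  have e : (fun z => sch (fun x _ => f x) (U z) (s z) 1) = fc U s f := by
    funext z
    refine frame_inj (orthT hF z) ?_
    rw [sch_frame' (orthT hF z)]
    have h2 : (U z)ᵀ * fc U s f z * U z = diagonal fun k => f (s z k) := by
      unfold fc
      calc (U z)ᵀ * (U z * diagonal (fun k => f (s z k)) * (U z)ᵀ) * U z
          = ((U z)ᵀ * U z) * diagonal (fun k => f (s z k)) * ((U z)ᵀ * U z) := by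
            simp only [Matrix.mul_assoc]
        _ = _ := by rw [orthT hF z, Matrix.one_mul, Matrix.mul_one]
    rw [h2, Matrix.mul_one, orthT hF z]
    ext i j
    rw [of_apply]
    by_cases hij : i = j
    · subst hij
      rw [one_apply_eq, diagonal_apply_eq, mul_one]
    · rw [one_apply_ne hij, diagonal_apply_ne _ hij, mul_zero]
  rw [e] at h1
  exact h1

/-- `Σ_ij w(s_i,s_j) X_ij Y_ij` in the frame, as a sum over entries -/
lemma frame_pair {U : Matrix (Fin n) (Fin n) ℝ} (hU : Uᵀ * U = 1) (w : ℝ → ℝ → ℝ) (s : Fin n → ℝ)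
    (X Y : Matrix (Fin n) (Fin n) ℝ) :
    ∑ i, ∑ j, w (s i) (s j) * ((Uᵀ * X * U) i j * (Uᵀ * Y * U) i j)
      = ∑ i, ∑ j, sch w U s X i j * Y i j := by
  have hU' : U * Uᵀ = 1 := mul_eq_one_comm.1 hU
  have key : ∀ A B : Matrix (Fin n) (Fin n) ℝ, ∑ i, ∑ j, A i j * B i j = (Aᵀ * B).trace := by
    intro A B
    rw [Matrix.trace, Finset.sum_comm]
    refine Finset.sum_congr rfl fun i _ => ?_
    rw [diag_apply, mul_apply]
    exact Finset.sum_congr rfl fun j _ => by rw [transpose_apply]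
  have e1 : ∀ i j, w (s i) (s j) * ((Uᵀ * X * U) i j * (Uᵀ * Y * U) i j)
      = (Uᵀ * sch w U s X * U) i j * (Uᵀ * Y * U) i j := by
    intro i j
    rw [sch_frame hU]
    ring
  simp only [e1]
  rw [key, key]
  have e2 : (Uᵀ * sch w U s X * U)ᵀ * (Uᵀ * Y * U) = Uᵀ * ((sch w U s X)ᵀ * Y * U) := by
    rw [transpose_mul, transpose_mul, transpose_transpose]
    calc Uᵀ * ((sch w U s X)ᵀ * U) * (Uᵀ * Y * U)
        = Uᵀ * (sch w U s X)ᵀ * (U * Uᵀ) * Y * U := by simp only [Matrix.mul_assoc]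
      _ = _ := by
          rw [hU', Matrix.mul_one]
          simp only [Matrix.mul_assoc]
  rw [e2, trace_mul_comm, Matrix.mul_assoc, hU', Matrix.mul_one]

/-- **integrability of all two-variable sums** `Σ_ij w(s_i,s_j) (uu_k)_ij (uu_l)_ij` -/
theorem bm_uu (h : BP φ V a b M κ) (hF : Fr P φ U s) {w : ℝ → ℝ → ℝ}
    (hw : Continuous fun p : ℝ × ℝ => w p.1 p.2) (k l : Fin n) :
    BM (gQ n) fun z => ∑ i, ∑ j, w (s z i) (s z j) * (uu U s k z i j * uu U s l z i j) := by
  have e : (fun z => ∑ i, ∑ j, w (s z i) (s z j) * (uu U s k z i j * uu U s l z i j))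
      = fun z => ∑ i, ∑ j, sch w (U z) (s z) (pdM k (GG U s) z) i j * pdM l (GG U s) z i j :=
    funext fun z => frame_pair (orthT hF z) w (s z) _ _
  rw [e]
  exact BM.sum _ fun i _ => BM.sum _ fun j _ =>
    (mbm_sch h hF hw (mbm_pdM (mbl_GG h hF) k) i j).mul (mbm_pdM (mbl_GG h hF) l i j)

end Vale.Agent.P254.SP127
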