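import Vale.Agent.P254.SP.IfaceA

/-!
# P254, block SP, row SP-SLACK: the weight `q(m) = m r(g m)²` and the exact slack

For `P : F1`: derivative of `g`, of `q`, monotonicity of `q'`, and for all real `x y`
`q[L x, L y] / (L x L y) (L[x,y])² = t[x,y]² / (L x L y) - r[x,y]²` (diagonal included).
-/

open Filter Topology Set

noncomputable section

namespace Vale.Agent.P254.SP127

open Vale.Agent.P254.SP

variable (P : F1)

/-! ### one-variable facts -/

lemma L_strictMono : StrictMono P.L :=
  strictMono_of_deriv_pos fun s => by rw [(P.hL s).deriv]; exact P.L'_pos s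

lemma L_inj {x y : ℝ} : P.L x = P.L y ↔ x = y := (L_strictMono P).injective.eq_iff

lemma L_cont : Continuous P.L := continuous_iff_continuousAt.2 fun s => (P.hL s).continuousAt

lemma t_cont : Continuous P.t := continuous_iff_continuousAt.2 fun s => (P.ht s).continuousAt

lemma r_cont : Continuous P.r := continuous_iff_continuousAt.2 fun s => (P.hr s).continuousAt

lemma r'_cont : Continuous P.r' := continuous_iff_continuousAt.2 fun s => (P.hr' s).continuousAt

lemma r_pos (s : ℝ) : 0 < P.r s := by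
  have h := P.r_eq s
  have h1 := P.t_pos s
  rw [← h] at h1
  exact (mul_pos_iff_of_pos_right (P.L_pos s)).1 h1

/-- `r' L + r L' = L` -/
lemma rL (s : ℝ) : P.r' s * P.L s + P.r s * P.L' s = P.L s := by
  have h1 := (P.hr s).mul (P.hL s)
  have h2 : HasDerivAt (fun s => P.r s * P.L s) (P.L s) s := by
    have e : (fun s => P.r s * P.L s) = P.t := funext P.r_eq
    rw [e]
    exact P.ht s
  exact h1.unique h2

lemma r'_lt_one (s : ℝ) : P.r' s < 1 := by
  have h1 := rL P s
  have h2 := mul_pos (r_pos P s) (P.L'_pos s)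
  have h3 := P.L_pos s
  by_contra h
  push Not at h
  nlinarith

lemma g_continuousOn : ContinuousOn P.g (Ioi 0) := by
  have h := P.g_concave.neg.continuousOn isOpen_Ioi
  simpa using h.neg

lemma g_hasDeriv {m : ℝ} (hm : 0 < m) : HasDerivAt P.g (P.L' (P.g m))⁻¹ m := by
  refine HasDerivAt.of_local_left_inverse ((g_continuousOn P).continuousAt (Ioi_mem_nhds hm))
    (P.hL (P.g m)) (P.L'_pos _).ne' ?_
  filter_upwards [Ioi_mem_nhds hm] with y hy
  exact P.L_g y hy

/-- the spectral weight `q(m) = m r(g m)²` -/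
def qq (m : ℝ) : ℝ := m * P.r (P.g m) ^ 2

/-- its derivative -/
def qq' (m : ℝ) : ℝ :=
  P.r (P.g m) ^ 2 + 2 * m * P.r (P.g m) * (P.r' (P.g m) * (P.L' (P.g m))⁻¹)

lemma qq_nonneg {m : ℝ} (hm : 0 < m) : 0 ≤ qq P m := mul_nonneg hm.le (sq_nonneg _)

lemma rg_hasDeriv {m : ℝ} (hm : 0 < m) :
    HasDerivAt (fun m => P.r (P.g m)) (P.r' (P.g m) * (P.L' (P.g m))⁻¹) m :=
  (P.hr (P.g m)).comp m (g_hasDeriv P hm)

lemma qq_hasDeriv {m : ℝ} (hm : 0 < m) : HasDerivAt (qq P) (qq' P m) m := by
  have h := (hasDerivAt_id m).mul ((rg_hasDeriv P hm).pow 2)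
  unfold qq qq'
  refine h.congr_deriv ?_
  simp only [id, Pi.pow_apply]
  ring

lemma qq'_continuousOn : ContinuousOn (qq' P) (Ioi 0) := by
  have hg := g_continuousOn P
  have h1 : ContinuousOn (fun m => P.r (P.g m)) (Ioi 0) := (r_cont P).comp_continuousOn hg
  have h2 : ContinuousOn (fun m => P.r' (P.g m)) (Ioi 0) := (r'_cont P).comp_continuousOn hg
  have h3 : ContinuousOn (fun m => (P.L' (P.g m))⁻¹) (Ioi 0) :=
    (P.L'_cont.comp_continuousOn hg).inv₀ fun x _ => (P.L'_pos _).ne'
  unfold qq'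
  exact (h1.pow 2).add (((continuousOn_const.mul continuousOn_id).mul h1).mul (h2.mul h3))

lemma qq'_monotoneOn : MonotoneOn (qq' P) (Ioi 0) := by
  have h1 : ConvexOn ℝ (Ioi 0) (qq P) := P.q_convex
  have h2 := h1.monotoneOn_deriv fun x hx => (qq_hasDeriv P hx).differentiableAt
  intro x hx y hy hxy
  have h := h2 hx hy hxy
  rwa [(qq_hasDeriv P hx).deriv, (qq_hasDeriv P hy).deriv] at h

/-! ### the exact slack -/

/-- **PAIR** `q[Lx,Ly]/(Lx Ly) (L[x,y])² = wσ(x,y) - r[x,y]²` -/
theorem pair (x y : ℝ) :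
    dd (qq P) (qq' P) (P.L x) (P.L y) / (P.L x * P.L y) * dd P.L P.L' x y ^ 2
      = wσ P x y - dd P.r P.r' x y ^ 2 := by
  unfold wσ
  by_cases hxy : x = y
  · subst hxy
    simp only [dd, if_true]
    unfold qq'
    rw [P.g_L]
    have h1 := rL P x
    have h2 := (P.L_pos x).ne'
    have h3 := (P.L'_pos x).ne'
    have h4 : P.r x = P.L x * (1 - P.r' x) / P.L' x := by
      field_simp
      linarith
    rw [h4]
    field_simp
    ring
  · have hL : P.L x ≠ P.L y := fun h => hxy ((L_inj P).1 h)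
    simp only [dd, if_neg hxy, if_neg hL]
    unfold qq
    rw [P.g_L, P.g_L]
    have h1 := (P.L_pos x).ne'
    have h2 := (P.L_pos y).ne'
    have h3 : x - y ≠ 0 := sub_ne_zero.2 hxy
    have h4 : P.L x - P.L y ≠ 0 := sub_ne_zero.2 hL
    rw [← P.r_eq x, ← P.r_eq y]
    field_simp
    ring

/-- `q(L s) / L s = r(s)²` -/
lemma qq_div (s : ℝ) : qq P (P.L s) / P.L s = P.r s ^ 2 := by
  unfold qq
  rw [P.g_L]
  have h1 := (P.L_pos s).ne'
  field_simp

/-- `dd q q' ≥ 0`, hence the pair weight is nonnegative: `r[x,y]² ≤ wσ(x,y)` -/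
theorem ddr_sq_le (x y : ℝ) : dd P.r P.r' x y ^ 2 ≤ wσ P x y := by
  have h := pair P x y
  have h0 : 0 ≤ dd (qq P) (qq' P) (P.L x) (P.L y) := by
    have hq' : ∀ m, 0 < m → 0 ≤ qq' P m := by
      intro m hm
      unfold qq'
      have h1 := r_pos P (P.g m)
      have h2 := P.r'_pos (P.g m)
      have h3 := P.L'_pos (P.g m)
      positivity
    unfold dd
    split_ifs with hxy
    · exact hq' _ (P.L_pos x)
    · have hmono : MonotoneOn (qq P) (Ioi 0) := by
        refine monotoneOn_of_deriv_nonneg (convex_Ioi 0)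
          (fun m hm => (qq_hasDeriv P hm).continuousAt.continuousWithinAt)
          (fun m hm => ?_) (fun m hm => ?_)
        · rw [interior_Ioi] at hm
          exact (qq_hasDeriv P hm).differentiableAt.differentiableWithinAt
        · rw [interior_Ioi] at hm
          rw [(qq_hasDeriv P hm).deriv]
          exact hq' m hm
      rcases lt_or_gt_of_ne hxy with h1 | h1
      · have h2 := hmono (P.L_pos x) (P.L_pos y) h1.le
        exact div_nonneg_of_nonpos (by linarith) (by linarith)
      · have h2 := hmono (P.L_pos y) (P.L_pos x) h1.le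
        exact div_nonneg (by linarith) (by linarith)
  have h1 := P.L_pos x
  have h2 := P.L_pos y
  have h3 : 0 ≤ wσ P x y - dd P.r P.r' x y ^ 2 := by
    rw [← h]
    positivity
  linarith

end Vale.Agent.P254.SP127
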